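import Mathlib
import Crest.Prelude.Def_AsymptoticConvexity

/-! General facts about `RealBanach` records: a criterion for the absence of equivalent
asymptotically uniformly convex norms through trees of bounded height-`n` partial sums. -/

set_option autoImplicit false

namespace Crest.Agent.H4

open Crest.AnalysisR Filter Topology

section

variable {X : Type} [NormedAddCommGroup X] [NormedSpace ℝ X]

/-- The record attached to a complete real normed space. -/
abbrev RB (X : Type) [i1 : NormedAddCommGroup X] [i2 : NormedSpace ℝ X] [i3 : CompleteSpace X] :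
    RealBanach := ⟨X, i1, i2, i3⟩

/-- closed finite codimensional sets -/
def Cof (F : Set X) : Prop :=
  ∃ S : Submodule ℝ X, (S : Set X) = F ∧ IsClosed F ∧ FiniteDimensional ℝ (X ⧸ S)

lemma isCof_iff [CompleteSpace X] (F : Set X) : (RB X).IsCof F ↔ Cof F := Iff.rfl

lemma cof_ker {Y : Type*} [NormedAddCommGroup Y] [NormedSpace ℝ Y] [FiniteDimensional ℝ Y]
    (Φ : X →L[ℝ] Y) : Cof ({x | Φ x = 0} : Set X) := by
  refine ⟨LinearMap.ker (Φ : X →ₗ[ℝ] Y), ?_, ?_, ?_⟩
  · ext x; simp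
  · exact isClosed_eq Φ.continuous continuous_const
  · exact Module.Finite.equiv (LinearMap.quotKerEquivRange (Φ : X →ₗ[ℝ] Y)).symm

/-- square-summable upper estimate implies weak nullness -/
lemma weakNull_of_l2 (y : ℕ → X) (C : ℝ)
    (h : ∀ (A : Finset ℕ) (a : ℕ → ℝ), ‖∑ n ∈ A, a n • y n‖ ≤ C * Real.sqrt (∑ n ∈ A, a n ^ 2))
    (ψ : X →L[ℝ] ℝ) : Tendsto (fun n => ψ (y n)) atTop (𝓝 0) := by
  have key : ∀ A : Finset ℕ, ∑ n ∈ A, (ψ (y n)) ^ 2 ≤ (‖ψ‖ * C) ^ 2 := by
    intro A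
    set T := ∑ n ∈ A, (ψ (y n)) ^ 2 with hT
    have hT0 : 0 ≤ T := Finset.sum_nonneg fun n _ => sq_nonneg _
    have h1 : T = ψ (∑ n ∈ A, ψ (y n) • y n) := by
      rw [map_sum]
      refine Finset.sum_congr rfl fun n _ => ?_
      rw [map_smul, smul_eq_mul, sq]
    have h2 : T ≤ ‖ψ‖ * (C * Real.sqrt T) := by
      calc T = ψ (∑ n ∈ A, ψ (y n) • y n) := h1
        _ ≤ ‖ψ (∑ n ∈ A, ψ (y n) • y n)‖ := le_abs_self _
        _ ≤ ‖ψ‖ * ‖∑ n ∈ A, ψ (y n) • y n‖ := ψ.le_opNorm _
        _ ≤ _ := mul_le_mul_of_nonneg_left (h A fun n => ψ (y n)) (norm_nonneg _)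
    have h3 : Real.sqrt T ^ 2 = T := Real.sq_sqrt hT0
    have h4 : 0 ≤ Real.sqrt T := Real.sqrt_nonneg _
    by_cases hs : Real.sqrt T = 0
    · rw [← h3, hs]; nlinarith [sq_nonneg (‖ψ‖ * C)]
    · have hpos : 0 < Real.sqrt T := lt_of_le_of_ne h4 (Ne.symm hs)
      have h5 : Real.sqrt T ≤ ‖ψ‖ * C := by
        by_contra hcon
        push Not at hcon
        nlinarith
      rw [← h3]
      exact pow_le_pow_left₀ h4 h5 2
  have hsum : Summable (fun n => (ψ (y n)) ^ 2) :=
    summable_of_sum_le (fun n => sq_nonneg _) key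
  have := hsum.tendsto_atTop_zero
  have h2 : Tendsto (fun n => Real.sqrt ((ψ (y n)) ^ 2)) atTop (𝓝 0) := by
    have h3 := (Real.continuous_sqrt.tendsto 0).comp this
    rw [Real.sqrt_zero] at h3
    exact h3
  simp only [Real.sqrt_sq_eq_abs] at h2
  exact (tendsto_zero_iff_abs_tendsto_zero _).mpr h2

/-- A weakly null sequence approximates every closed finite codimensional subspace. -/
lemma approx_of_weakNull (y : ℕ → X) (h : ∀ ψ : X →L[ℝ] ℝ, Tendsto (fun n => ψ (y n)) atTop (𝓝 0))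
    (F : Set X) (hF : Cof F) (ε : ℝ) (hε : 0 < ε) : ∃ n, ∃ y' ∈ F, ‖y n - y'‖ < ε := by
  obtain ⟨S, hS, hcl, hfd⟩ := hF
  have : IsClosed (S : Set X) := by rw [hS]; exact hcl
  have : FiniteDimensional ℝ (X ⧸ S) := hfd
  let q : X →L[ℝ] (X ⧸ S) := S.mkQL
  let b := Module.finBasis ℝ (X ⧸ S)
  have hq : Tendsto (fun n => q (y n)) atTop (𝓝 0) := by
    have hc : ∀ i, Tendsto (fun n => b.repr (q (y n)) i) atTop (𝓝 0) := by
      intro i
      let c : (X ⧸ S) →L[ℝ] ℝ := LinearMap.toContinuousLinearMap (b.coord i)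
      have := h (c.comp q)
      simpa [c] using this
    have h2 : ∀ n, q (y n) = ∑ i, b.repr (q (y n)) i • b i := fun n => (b.sum_repr _).symm
    have h3 : Tendsto (fun n => ∑ i, b.repr (q (y n)) i • b i) atTop (𝓝 (∑ i, (0:ℝ) • b i)) :=
      tendsto_finsetSum _ fun i _ => (hc i).smul_const (b i)
    simp only [zero_smul, Finset.sum_const_zero] at h3
    refine h3.congr fun n => (h2 n).symm
  have h4 : ∀ᶠ n in atTop, ‖q (y n)‖ < ε := by
    have := hq.norm
    rw [norm_zero] at this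
    exact this.eventually (gt_mem_nhds hε)
  obtain ⟨n, hn⟩ := h4.exists
  have hn' : ‖(S.mkQ (y n) : X ⧸ S)‖ < ε := hn
  rw [Submodule.mkQ_apply] at hn'
  obtain ⟨z, hz, hz'⟩ := Submodule.Quotient.norm_mk_lt (S := S)
    (Submodule.Quotient.mk (y n) : X ⧸ S)
    (ε := ε - ‖(Submodule.Quotient.mk (y n) : X ⧸ S)‖) (by linarith)
  refine ⟨n, y n - z, ?_, ?_⟩
  · rw [← hS]
    have : (Submodule.Quotient.mk (y n) : X ⧸ S) = Submodule.Quotient.mk z := hz.symm
    exact (Submodule.Quotient.eq S).mp this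
  · rw [sub_sub_cancel]; linarith

/-- A space containing a weakly null sequence bounded away from zero is infinite dimensional. -/
lemma not_finiteDimensional_of_weakNull (y : ℕ → X)
    (h : ∀ ψ : X →L[ℝ] ℝ, Tendsto (fun n => ψ (y n)) atTop (𝓝 0)) (c : ℝ) (hc : 0 < c)
    (hy : ∀ n, c ≤ ‖y n‖) : ¬ FiniteDimensional ℝ X := by
  intro hfd
  have hF : Cof ({0} : Set X) := by
    refine ⟨⊥, by simp, isClosed_singleton, ?_⟩
    infer_instance
  obtain ⟨n, y', hy', hlt⟩ := approx_of_weakNull y h {0} hF c hc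
  rw [Set.mem_singleton_iff] at hy'
  rw [hy', sub_zero] at hlt
  linarith [hy n]

/-- `Tree B c n x`: starting from `x`, there are trees of height `n` with almost weakly null
increments of norm at least `c` and all partial sums of norm at most `B`. -/
def Tree (B c : ℝ) : ℕ → X → Prop
  | 0, x => ‖x‖ ≤ B
  | n + 1, x => ‖x‖ ≤ B ∧ ∀ F : Set X, Cof F → ∀ ε : ℝ, 0 < ε →
      ∃ y, (∃ y' ∈ F, ‖y - y'‖ < ε) ∧ c ≤ ‖y‖ ∧ Tree B c n (x + y)

lemma Tree.bound {B c : ℝ} {n : ℕ} {x : X} (h : Tree B c n x) : ‖x‖ ≤ B := by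
  cases n with
  | zero => exact h
  | succ n => exact h.1

/-- Bounded trees of every height exclude equivalent asymptotically uniformly convex norms. -/
theorem noAUC [CompleteSpace X] (B c r : ℝ) (hB : 0 < B) (hc : 0 < c) (hr : 0 < r)
    (h : ∀ n, ∃ x : X, r ≤ ‖x‖ ∧ Tree B c n x) (N : X → ℝ) (hN : (RB X).IsEquivNorm N) :
    ¬ (RB X).IsAUC N := by
  intro hA
  obtain ⟨hadd, hsmul, a, b, ha, hab⟩ := hN
  replace hadd : ∀ x y : X, N (x + y) ≤ N x + N y := hadd
  replace hsmul : ∀ (s : ℝ) (x : X), N (s • x) = abs s * N x := hsmul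
  replace hab : ∀ x : X, a * ‖x‖ ≤ N x ∧ N x ≤ b * ‖x‖ := hab
  have hb : 0 < b := by
    obtain ⟨x, hx, -⟩ := h 0
    have h1 := hab x
    have h2 : 0 < a * ‖x‖ := mul_pos ha (lt_of_lt_of_le hr hx)
    by_contra hcon
    push Not at hcon
    have : b * ‖x‖ ≤ 0 := mul_nonpos_of_nonpos_of_nonneg hcon (norm_nonneg _)
    linarith
  set t0 : ℝ := a * (c / 2) / (b * B) with ht0
  have ht0pos : 0 < t0 := by positivity
  obtain ⟨c0, hc0, hc0'⟩ := hA t0 ht0pos
  replace hc0' : ∀ x : X, N x = 1 → ∃ F : Set X, Cof F ∧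
    ∀ y ∈ F, N y = 1 → c0 ≤ N (x + t0 • y) - 1 := hc0'
  have hstep : ∀ n (x : X), Tree B c (n + 1) x → 0 < N x →
      ∃ y : X, Tree B c n (x + y) ∧ N x * (1 + c0 / 2) ≤ N (x + y) := by
    intro n x hT hx
    obtain ⟨hxB, hT⟩ := hT
    set m := N x with hm
    have h1 : N ((1 / m) • x) = 1 := by
      rw [hsmul, abs_of_pos (by positivity), ← hm]; field_simp
    obtain ⟨F, hF, hF'⟩ := hc0' _ h1
    obtain ⟨y, ⟨y', hy'F, hyy'⟩, hcy, hTy⟩ := hT F hF (min (c / 2) (m * c0 / (2 * b)))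
      (by positivity)
    refine ⟨y, hTy, ?_⟩
    have he1 : ‖y - y'‖ ≤ c / 2 := (hyy'.trans_le (min_le_left _ _)).le
    have he2 : ‖y - y'‖ ≤ m * c0 / (2 * b) := (hyy'.trans_le (min_le_right _ _)).le
    have hy'n : c / 2 ≤ ‖y'‖ := by
      have : ‖y‖ ≤ ‖y - y'‖ + ‖y'‖ := by
        calc ‖y‖ = ‖(y - y') + y'‖ := by congr 1; abel
          _ ≤ _ := norm_add_le _ _
      linarith
    set k := N y' with hk
    have hkpos : a * (c / 2) ≤ k := (mul_le_mul_of_nonneg_left hy'n ha.le).trans (hab y').1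
    have hk0 : 0 < k := lt_of_lt_of_le (by positivity) hkpos
    have hmB : m ≤ b * B := (hab x).2.trans (mul_le_mul_of_nonneg_left hxB hb.le)
    set s := k / m with hs
    have hs0 : 0 < s := by positivity
    have hst : t0 ≤ s := by
      rw [ht0, hs]
      exact div_le_div₀ hk0.le hkpos hx hmB
    have hyF : (1 / k) • y' ∈ F := by
      obtain ⟨S, hS, -, -⟩ := hF
      rw [← hS] at hy'F ⊢
      exact S.smul_mem _ hy'F
    have h2 : N ((1 / k) • y') = 1 := by
      rw [hsmul, abs_of_pos (by positivity), ← hk]; field_simp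
    have h3 := hF' _ hyF h2
    set xh := (1 / m) • x with hxh
    set yh := (1 / k) • y' with hyh
    clear_value xh yh
    set θ := t0 / s with hθ
    have hθ0 : 0 < θ := by positivity
    have hθ1 : θ ≤ 1 := by rw [hθ, div_le_one hs0]; exact hst
    have h4 : xh + t0 • yh = (1 - θ) • xh + θ • (xh + s • yh) := by
      have : θ * s = t0 := by rw [hθ]; field_simp
      rw [smul_add, smul_smul, this, ← add_assoc, ← add_smul]
      congr 1
      rw [sub_add_cancel, one_smul]
    have h5 : N (xh + t0 • yh) ≤ (1 - θ) * 1 + θ * N (xh + s • yh) := by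
      rw [h4]
      refine (hadd _ _).trans ?_
      rw [hsmul, hsmul, abs_of_nonneg (by linarith), abs_of_pos hθ0, h1]
    have h6 : 1 + c0 ≤ N (xh + s • yh) := by
      have h7 : θ * (1 + c0) ≤ θ * N (xh + s • yh) := by nlinarith
      exact le_of_mul_le_mul_left h7 hθ0
    have h8 : x + y' = m • (xh + s • yh) := by
      rw [smul_add, hxh, hyh, smul_smul, smul_smul, smul_smul]
      have e1 : m * (1 / m) = 1 := by field_simp
      have e2 : m * s * (1 / k) = 1 := by rw [hs]; field_simp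
      rw [e1, e2, one_smul, one_smul]
    have h9 : m * (1 + c0) ≤ N (x + y') := by
      rw [h8, hsmul, abs_of_pos hx]
      exact mul_le_mul_of_nonneg_left h6 hx.le
    have h10 : N (x + y') ≤ N (x + y) + m * c0 / 2 := by
      have : x + y' = (x + y) + (y' - y) := by abel
      rw [this]
      refine (hadd _ _).trans ?_
      have h11 : N (y' - y) ≤ b * (m * c0 / (2 * b)) :=
        (hab _).2.trans (mul_le_mul_of_nonneg_left (by rw [norm_sub_rev]; exact he2) hb.le)
      have h12 : b * (m * c0 / (2 * b)) = m * c0 / 2 := by field_simp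
      linarith
    nlinarith
  have hind : ∀ n (x : X), Tree B c n x → 0 < N x → N x * (1 + c0 / 2) ^ n ≤ b * B := by
    intro n
    induction n with
    | zero =>
      intro x hT _
      rw [pow_zero, mul_one]
      exact (hab x).2.trans (mul_le_mul_of_nonneg_left hT hb.le)
    | succ n ih =>
      intro x hT hx
      obtain ⟨y, hTy, hy⟩ := hstep n x hT hx
      have h1 : 0 < N (x + y) := lt_of_lt_of_le (by positivity) hy
      have h2 := ih (x + y) hTy h1
      calc N x * (1 + c0 / 2) ^ (n + 1) = (N x * (1 + c0 / 2)) * (1 + c0 / 2) ^ n := by ring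
        _ ≤ N (x + y) * (1 + c0 / 2) ^ n :=
          mul_le_mul_of_nonneg_right hy (by positivity)
        _ ≤ _ := h2
  have hlim : Tendsto (fun n : ℕ => (a * r) * (1 + c0 / 2) ^ n) atTop atTop :=
    (tendsto_pow_atTop_atTop_of_one_lt (by linarith)).const_mul_atTop (by positivity)
  obtain ⟨n, hn⟩ := (hlim.eventually (eventually_gt_atTop (b * B))).exists
  obtain ⟨x, hx, hT⟩ := h n
  have hNx : a * r ≤ N x := (mul_le_mul_of_nonneg_left hx ha.le).trans (hab x).1
  have hNx0 : 0 < N x := lt_of_lt_of_le (by positivity) hNx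
  have h1 := hind n x hT hNx0
  have h2 : a * r * (1 + c0 / 2) ^ n ≤ N x * (1 + c0 / 2) ^ n :=
    mul_le_mul_of_nonneg_right hNx (by positivity)
  linarith

end

end Crest.Agent.H4
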