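import Mathlib
import Crest.Prelude.Def_Diamond
import Crest.Agent.H4.AUC

/-! An asymptotic two-point estimate (`AP`) and its consequences: moduli and diamonds. -/

set_option autoImplicit false

namespace Crest.Agent.H4

open Crest.AnalysisR Filter Topology

section

variable {X Y : Type} [NormedAddCommGroup X] [NormedSpace ℝ X] [NormedAddCommGroup Y]
  [NormedSpace ℝ Y]

lemma cof_of_lin {Z : Type*} [AddCommGroup Z] [Module ℝ Z] [FiniteDimensional ℝ Z]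
    (g : X →ₗ[ℝ] Z) (hcl : IsClosed {x | g x = 0}) : Cof ({x | g x = 0} : Set X) := by
  refine ⟨LinearMap.ker g, ?_, hcl, ?_⟩
  · ext x; simp
  · exact Module.Finite.equiv (LinearMap.quotKerEquivRange g).symm

lemma Cof.comap (L : X →L[ℝ] Y) {F : Set Y} (hF : Cof F) : Cof (L ⁻¹' F) := by
  obtain ⟨S, rfl, hcl, hfd⟩ := hF
  have h : (L ⁻¹' (S : Set Y)) = {x | (S.mkQ ∘ₗ (L : X →ₗ[ℝ] Y)) x = 0} := by
    ext x; simp
  have hcl' : IsClosed (L ⁻¹' (S : Set Y)) := hcl.preimage L.continuous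
  rw [h] at hcl' ⊢
  exact cof_of_lin _ hcl'

lemma Cof.inter {F G : Set X} (hF : Cof F) (hG : Cof G) : Cof (F ∩ G) := by
  obtain ⟨S, rfl, hcl, hfd⟩ := hF
  obtain ⟨T, rfl, hcl2, hfd2⟩ := hG
  have h : ((S : Set X) ∩ (T : Set X)) = {x | (S.mkQ.prod T.mkQ) x = 0} := by
    ext x; simp
  have hcl' : IsClosed ((S : Set X) ∩ (T : Set X)) := hcl.inter hcl2
  rw [h] at hcl' ⊢
  exact cof_of_lin _ hcl'

lemma Cof.univ : Cof (Set.univ : Set X) := by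
  refine ⟨⊤, by simp, isClosed_univ, ?_⟩
  infer_instance

lemma Cof.forall_mem {ι : Type*} (s : Finset ι) (F : ι → Set X) (h : ∀ i ∈ s, Cof (F i)) :
    Cof {x | ∀ i ∈ s, x ∈ F i} := by
  classical
  induction s using Finset.induction_on with
  | empty => simpa using (Cof.univ : Cof (Set.univ : Set X))
  | insert a s ha ih =>
    have e : {x | ∀ i ∈ insert a s, x ∈ F i} = F a ∩ {x | ∀ i ∈ s, x ∈ F i} := by
      ext x; simp
    rw [e]
    exact (h a (Finset.mem_insert_self _ _)).inter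
      (ih fun i hi => h i (Finset.mem_insert_of_mem hi))

lemma Cof.smul_mem {F : Set X} (hF : Cof F) (t : ℝ) {y : X} (hy : y ∈ F) : t • y ∈ F := by
  obtain ⟨S, rfl, -, -⟩ := hF
  exact S.smul_mem _ hy

/-- Trees are transported by linear isometries. -/
lemma Tree.map (L : X →ₗᵢ[ℝ] Y) {B c : ℝ} {n : ℕ} : ∀ {x : X}, Tree B c n x → Tree B c n (L x) := by
  induction n with
  | zero => intro x h; show ‖L x‖ ≤ B; rw [L.norm_map]; exact h
  | succ n ih =>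
    intro x h
    refine ⟨by rw [L.norm_map]; exact h.1, fun F hF ε hε => ?_⟩
    obtain ⟨y, ⟨y', hy', hlt⟩, hc, hT⟩ := h.2 _ (hF.comap L.toContinuousLinearMap) ε hε
    refine ⟨L y, ⟨L y', hy', ?_⟩, ?_, ?_⟩
    · rw [← map_sub, L.norm_map]; exact hlt
    · rw [L.norm_map]; exact hc
    · rw [← map_add]; exact ih hT

lemma sq1 (a a' b : ℝ) :
    Real.sqrt (a ^ 2 + b ^ 2 / 4) ≤ Real.sqrt (a' ^ 2 + b ^ 2 / 4) + |a - a'| := by
  set R := Real.sqrt (a' ^ 2 + b ^ 2 / 4) with hR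
  have hR0 : 0 ≤ R := Real.sqrt_nonneg _
  have hR2 : R ^ 2 = a' ^ 2 + b ^ 2 / 4 := Real.sq_sqrt (by positivity)
  have h1 : |a'| ≤ R := Real.abs_le_sqrt (by nlinarith [sq_nonneg b])
  apply Real.sqrt_le_iff.mpr
  refine ⟨by positivity, ?_⟩
  have h2 : (a - a') * a' ≤ |a - a'| * R :=
    (le_abs_self _).trans (by rw [abs_mul]; exact mul_le_mul_of_nonneg_left h1 (abs_nonneg _))
  have h3 : |a - a'| ^ 2 = (a - a') ^ 2 := sq_abs _
  nlinarith

lemma sq2 (a b b' : ℝ) :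
    Real.sqrt (a ^ 2 + b ^ 2 / 4) ≤ Real.sqrt (a ^ 2 + b' ^ 2 / 4) + |b - b'| / 2 := by
  have h := sq1 (b / 2) (b' / 2) (2 * a)
  have e1 : (b / 2) ^ 2 + (2 * a) ^ 2 / 4 = a ^ 2 + b ^ 2 / 4 := by ring
  have e2 : (b' / 2) ^ 2 + (2 * a) ^ 2 / 4 = a ^ 2 + b' ^ 2 / 4 := by ring
  have e3 : |b / 2 - b' / 2| = |b - b'| / 2 := by
    rw [← sub_div, abs_div, abs_of_pos (by norm_num : (0:ℝ) < 2)]
  rw [e1, e2, e3] at h
  exact h

variable (X) in
/-- the asymptotic two-point estimate -/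
def AP : Prop := ∀ (x : X) (ε : ℝ), 0 < ε → ∃ F : Set X, Cof F ∧ ∀ y ∈ F,
  2 * Real.sqrt (‖x‖ ^ 2 + ‖y‖ ^ 2 / 4) ≤ ‖x + y‖ + ‖x - y‖ + ε

lemma AP.mid (h : AP X) (x : X) (hx : ‖x‖ = 1) (η : ℝ) (hη : 0 < η) (t : ℝ) (ht : 0 < t) :
    ∃ F : Set X, Cof F ∧ ∀ y ∈ F, ‖y‖ = 1 →
      Real.sqrt (1 + t ^ 2 / 4) - η ≤ (‖x + t • y‖ + ‖x - t • y‖) / 2 := by
  obtain ⟨F, hF, hF'⟩ := h x (2 * η) (by positivity)
  refine ⟨F, hF, fun y hy hy1 => ?_⟩
  have h1 := hF' (t • y) (hF.smul_mem t hy)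
  rw [norm_smul, hy1, hx, Real.norm_of_nonneg ht.le, mul_one, one_pow] at h1
  linarith

lemma AP.midpoint [CompleteSpace X] (h : AP X) (t c : ℝ) (ht : 0 < t)
    (hc : c ≤ Real.sqrt (1 + t ^ 2 / 4) - 1) : (RB X).MidpointModulusGE (RB X).norm t c := by
  intro x hx η hη
  obtain ⟨F, hF, hF'⟩ := h.mid x hx η hη t ht
  refine ⟨F, hF, fun y hy hy1 => ?_⟩
  have := hF' y hy hy1
  show c - η ≤ (‖x + t • y‖ + ‖x - t • y‖) / 2 - 1
  linarith

lemma AP.maxMidpoint [CompleteSpace X] (h : AP X) (t c : ℝ) (ht : 0 < t)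
    (hc : c ≤ Real.sqrt (1 + t ^ 2 / 4) - 1) : (RB X).MaxMidpointModulusGE (RB X).norm t c := by
  intro x hx η hη
  obtain ⟨F, hF, hF'⟩ := h.mid x hx η hη t ht
  refine ⟨F, hF, fun y hy hy1 => ?_⟩
  have := hF' y hy hy1
  show c - η ≤ max ‖x + t • y‖ ‖x - t • y‖ - 1
  have h1 := le_max_left ‖x + t • y‖ ‖x - t • y‖
  have h2 := le_max_right ‖x + t • y‖ ‖x - t • y‖
  linarith

/-- pigeonhole in a finite dimensional quotient -/
lemma Cof.pigeon {F : Set X} (hF : Cof F) (w : ℕ → X) (B : ℝ) (hw : ∀ i, ‖w i‖ ≤ B) (ε : ℝ)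
    (hε : 0 < ε) : ∃ i j, i ≠ j ∧ ∃ y ∈ F, ‖(w i - w j) - y‖ < ε := by
  obtain ⟨S, hS, hcl, hfd⟩ := hF
  have : IsClosed (S : Set X) := by rw [hS]; exact hcl
  have : FiniteDimensional ℝ (X ⧸ S) := hfd
  have : ProperSpace (X ⧸ S) := FiniteDimensional.proper_real _
  let q : X →L[ℝ] (X ⧸ S) := S.mkQL
  have hb : Bornology.IsBounded (q '' Metric.closedBall 0 B) :=
    Metric.isBounded_closedBall.image q
  obtain ⟨a, -, φ, hφ, hlim⟩ := tendsto_subseq_of_bounded hb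
    (fun n => (⟨w n, by simpa using hw n, rfl⟩ : q (w n) ∈ q '' Metric.closedBall 0 B))
  have hc := hlim.cauchySeq
  rw [Metric.cauchySeq_iff] at hc
  obtain ⟨N, hN⟩ := hc ε hε
  have h1 := hN (N + 1) (by omega) N le_rfl
  rw [dist_eq_norm] at h1
  refine ⟨φ (N + 1), φ N, (hφ (by omega : N < N + 1)).ne', ?_⟩
  have h2 : ‖(Submodule.Quotient.mk (w (φ (N + 1)) - w (φ N)) : X ⧸ S)‖ < ε := by
    have e : (Submodule.Quotient.mk (w (φ (N + 1)) - w (φ N)) : X ⧸ S)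
      = q (w (φ (N + 1))) - q (w (φ N)) := by rw [← map_sub]; rfl
    rw [e]; exact h1
  obtain ⟨z, hz, hz'⟩ := Submodule.Quotient.norm_mk_lt (S := S)
    (Submodule.Quotient.mk (w (φ (N + 1)) - w (φ N)) : X ⧸ S)
    (ε := ε - ‖(Submodule.Quotient.mk (w (φ (N + 1)) - w (φ N)) : X ⧸ S)‖) (by linarith)
  refine ⟨(w (φ (N + 1)) - w (φ N)) - z, ?_, ?_⟩
  · rw [← hS]
    exact (Submodule.Quotient.eq S).mp hz.symm
  · rw [sub_sub_cancel]; linarith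

lemma AP.step (h : AP X) (x : X) (w : ℕ → X) (R s : ℝ) (hs : 0 < s)
    (h1 : ∀ i, ‖x - w i‖ ≤ R) (h2 : ∀ i, ‖x + w i‖ ≤ R)
    (h3 : ∀ i j, i ≠ j → 2 * s ≤ ‖w i - w j‖) : ‖x‖ ^ 2 + s ^ 2 / 4 ≤ R ^ 2 := by
  have hR : 0 ≤ R := (norm_nonneg _).trans (h1 0)
  have key : ∀ ε : ℝ, 0 < ε → ε < s → Real.sqrt (‖x‖ ^ 2 + s ^ 2 / 4) ≤ R + 4 * ε := by
    intro ε hε hεs
    obtain ⟨F, hF, hF'⟩ := h x ε hε
    obtain ⟨i, j, hij, y, hy, hlt⟩ := hF.pigeon w (‖x‖ + R) (fun i => by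
      calc ‖w i‖ = ‖x - (x - w i)‖ := by rw [sub_sub_cancel]
        _ ≤ ‖x‖ + ‖x - w i‖ := norm_sub_le _ _
        _ ≤ _ := by linarith [h1 i]) ε hε
    have hz : (1/2 : ℝ) • y ∈ F := hF.smul_mem _ hy
    have h4 := hF' _ hz
    set z := (1/2 : ℝ) • y with hzdef
    have hzn : ‖z‖ = ‖y‖ / 2 := by
      rw [hzdef, norm_smul]; norm_num; ring
    have hyn : 2 * s - ε ≤ ‖y‖ := by
      have := h3 i j hij
      have h5 : ‖w i - w j‖ ≤ ‖(w i - w j) - y‖ + ‖y‖ := by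
        calc ‖w i - w j‖ = ‖((w i - w j) - y) + y‖ := by rw [sub_add_cancel]
          _ ≤ _ := norm_add_le _ _
      linarith
    have hp : ‖x + z‖ ≤ R + ε := by
      have e : x + z = (1/2 : ℝ) • ((x + w i) + (x - w j)) - (1/2 : ℝ) • ((w i - w j) - y) := by
        rw [hzdef]; module
      rw [e]
      refine (norm_sub_le _ _).trans ?_
      rw [norm_smul, norm_smul]
      have := norm_add_le (x + w i) (x - w j)
      norm_num
      linarith [h1 j, h2 i]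
    have hm : ‖x - z‖ ≤ R + ε := by
      have e : x - z = (1/2 : ℝ) • ((x - w i) + (x + w j)) + (1/2 : ℝ) • ((w i - w j) - y) := by
        rw [hzdef]; module
      rw [e]
      refine (norm_add_le _ _).trans ?_
      rw [norm_smul, norm_smul]
      have := norm_add_le (x - w i) (x + w j)
      norm_num
      linarith [h1 i, h2 j]
    have h6 : Real.sqrt (‖x‖ ^ 2 + (s - ε) ^ 2 / 4) ≤ Real.sqrt (‖x‖ ^ 2 + ‖z‖ ^ 2 / 4) := by
      apply Real.sqrt_le_sqrt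
      have : (s - ε) ^ 2 ≤ ‖z‖ ^ 2 := pow_le_pow_left₀ (by linarith) (by linarith) 2
      linarith
    have h7 := sq2 ‖x‖ s (s - ε)
    have h8 : |s - (s - ε)| = ε := by rw [sub_sub_cancel]; exact abs_of_pos hε
    rw [h8] at h7
    linarith
  have h9 : Real.sqrt (‖x‖ ^ 2 + s ^ 2 / 4) ≤ R := by
    refine le_of_forall_pos_lt_add fun δ hδ => ?_
    have h10 := key (min (δ / 8) (s / 2)) (by positivity)
      ((min_le_right _ _).trans_lt (by linarith))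
    have h11 : min (δ / 8) (s / 2) ≤ δ / 8 := min_le_left _ _
    linarith
  have h12 : Real.sqrt (‖x‖ ^ 2 + s ^ 2 / 4) ^ 2 = ‖x‖ ^ 2 + s ^ 2 / 4 :=
    Real.sq_sqrt (by positivity)
  rw [← h12]
  exact pow_le_pow_left₀ (Real.sqrt_nonneg _) h9 2

end

end Crest.Agent.H4
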