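import Mathlib
import Crest.Prelude.Def_DaugavetL1
import Crest.Agent.H4.AP

/-! Flat directions in spaces with the Daugavet property. -/

set_option autoImplicit false
set_option linter.unusedSectionVars false

namespace Crest.Agent.H4

open Crest.AnalysisR Crest.AnalysisR.L1Subspace Filter Topology

variable {X : Type} [NormedAddCommGroup X] [NormedSpace ℝ X]

lemma slice_daugavet (hD : HasDaugavetProperty X) (hne : ∃ z : X, ‖z‖ = 1) (ψ : X →L[ℝ] ℝ)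
    (v : X) (δ : ℝ) (hδ : 0 < δ) :
    ∃ u : X, ‖u‖ ≤ 1 ∧ ‖ψ‖ - δ ≤ ψ u ∧ ‖v‖ + 1 - δ ≤ ‖v + u‖ := by
  obtain ⟨w, hw1, hvw⟩ : ∃ w : X, ‖w‖ = 1 ∧ v = ‖v‖ • w := by
    by_cases hv : v = 0
    · obtain ⟨z, hz⟩ := hne
      exact ⟨z, hz, by rw [hv, norm_zero, zero_smul]⟩
    · have : ‖v‖ ≠ 0 := norm_ne_zero_iff.mpr hv
      refine ⟨‖v‖⁻¹ • v, ?_, ?_⟩
      · rw [norm_smul, norm_inv, norm_norm, inv_mul_cancel₀ this]
      · rw [smul_smul, mul_inv_cancel₀ this, one_smul]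
  by_cases hψ : ψ = 0
  · refine ⟨w, hw1.le, by rw [hψ]; simp [hδ.le], ?_⟩
    have e : v + w = (‖v‖ + 1) • w := by
      rw [add_smul, one_smul, ← hvw]
    rw [e, norm_smul, hw1, Real.norm_of_nonneg (by positivity)]
    linarith
  have hψ0 : 0 < ‖ψ‖ := norm_pos_iff.mpr hψ
  set a := ‖v‖ with ha
  have ha0 : 0 ≤ a := norm_nonneg _
  set φ : X →L[ℝ] ℝ := ‖ψ‖⁻¹ • ψ with hφ
  have hφ1 : ‖φ‖ = 1 := by
    rw [hφ, norm_smul, norm_inv, norm_norm, inv_mul_cancel₀ hψ0.ne']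
  have hψφ : ∀ z, ψ z = ‖ψ‖ * φ z := by
    intro z
    rw [hφ, smul_apply, smul_eq_mul, ← mul_assoc, mul_inv_cancel₀ hψ0.ne', one_mul]
  have hnT := hD φ w
  rw [ContinuousLinearMap.norm_smulRight_apply, hφ1, hw1, one_mul] at hnT
  set M : ℝ := 2 * (a + 1) + ‖ψ‖ with hM
  have hM0 : 0 < M := by positivity
  set d : ℝ := δ / M with hd
  have hd0 : 0 < d := by positivity
  have hdM : d * M = δ := by rw [hd]; field_simp
  obtain ⟨u0, hu1, hu2⟩ := ContinuousLinearMap.exists_lt_apply_of_lt_opNorm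
    (ContinuousLinearMap.id ℝ X + φ.smulRight w) (show 2 - d < _ by rw [hnT]; linarith)
  have hu2' : 2 - d < ‖u0 + φ u0 • w‖ := hu2
  obtain ⟨u, hu, hfu, hbig⟩ : ∃ u : X, ‖u‖ ≤ 1 ∧ 0 ≤ φ u ∧ 2 - d < ‖u + φ u • w‖ := by
    rcases le_total 0 (φ u0) with h | h
    · exact ⟨u0, hu1.le, h, hu2'⟩
    · refine ⟨-u0, by rw [norm_neg]; exact hu1.le, by rw [map_neg]; linarith, ?_⟩
      have : -u0 + φ (-u0) • w = -(u0 + φ u0 • w) := by rw [map_neg]; module
      rw [this, norm_neg]; exact hu2'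
  have hfu1 : φ u ≤ 1 := by
    have := φ.le_opNorm u
    rw [hφ1, one_mul] at this
    exact (le_abs_self _).trans (this.trans hu)
  have hfu2 : 1 - d ≤ φ u := by
    have := norm_add_le u (φ u • w)
    rw [norm_smul, hw1, mul_one, Real.norm_of_nonneg hfu] at this
    linarith
  have huw : 2 - 2 * d ≤ ‖u + w‖ := by
    have e : u + φ u • w = (u + w) - (1 - φ u) • w := by module
    have h1 : ‖u + φ u • w‖ ≤ ‖u + w‖ + (1 - φ u) := by
      rw [e]
      refine (norm_sub_le _ _).trans ?_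
      rw [norm_smul, hw1, mul_one, Real.norm_of_nonneg (by linarith)]
    linarith
  have hdle : 2 * (a + 1) * d ≤ δ := by
    have : 0 ≤ ‖ψ‖ * d := by positivity
    nlinarith
  refine ⟨u, hu, ?_, ?_⟩
  · rw [hψφ]
    have h1 : 0 ≤ 2 * (a + 1) * d := by positivity
    have h2 : ‖ψ‖ * (1 - d) ≤ ‖ψ‖ * φ u := mul_le_mul_of_nonneg_left hfu2 hψ0.le
    nlinarith
  · rw [hvw]
    rcases le_total 1 a with h1 | h1
    · have e : a • w + u = a • (u + w) - (a - 1) • u := by module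
      have h2 : ‖a • (u + w)‖ ≤ ‖a • w + u‖ + ‖(a - 1) • u‖ := by
        have : a • (u + w) = (a • w + u) + (a - 1) • u := by rw [e]; abel
        rw [this]; exact norm_add_le _ _
      rw [norm_smul, norm_smul, Real.norm_of_nonneg ha0, Real.norm_of_nonneg (by linarith)] at h2
      have h3 : (a - 1) * ‖u‖ ≤ (a - 1) * 1 := mul_le_mul_of_nonneg_left hu (by linarith)
      have h4 : a * (2 - 2 * d) ≤ a * ‖u + w‖ := mul_le_mul_of_nonneg_left huw ha0
      nlinarith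
    · have h2 : ‖u + w‖ ≤ ‖a • w + u‖ + ‖(1 - a) • w‖ := by
        have : u + w = (a • w + u) + (1 - a) • w := by module
        rw [this]; exact norm_add_le _ _
      rw [norm_smul, hw1, mul_one, Real.norm_of_nonneg (by linarith)] at h2
      have h3 : 0 ≤ a * d := by positivity
      nlinarith

section Good

variable {Q : Type} [NormedAddCommGroup Q] [InnerProductSpace ℝ Q] [FiniteDimensional ℝ Q]
  (Φ : X →L[ℝ] Q)

/-- points of the quotient that can be approximated by far away ball elements -/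
def GoodPt (p : Q) : Prop := ∀ (v : X) (δ : ℝ), 0 < δ →
  ∃ u : X, ‖u‖ ≤ 1 ∧ ‖Φ u - p‖ < δ ∧ ‖v‖ + 1 - δ < ‖v + u‖

lemma good_closed : IsClosed {p | GoodPt Φ p} := by
  refine isClosed_of_closure_subset fun p hp v δ hδ => ?_
  rw [Metric.mem_closure_iff] at hp
  obtain ⟨p', hp', hd⟩ := hp (δ / 2) (by positivity)
  rw [dist_eq_norm] at hd
  obtain ⟨u, hu, h1, h2⟩ := hp' v (δ / 2) (by positivity)
  refine ⟨u, hu, ?_, by linarith⟩
  have : Φ u - p = (Φ u - p') - (p - p') := by abel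
  rw [this]
  exact (norm_sub_le _ _).trans_lt (by linarith)

lemma lower_scale {v u : X} {δ s : ℝ} (hu : ‖u‖ ≤ 1) (hs1 : s ≤ 1)
    (h : ‖v‖ + 1 - δ < ‖v + u‖) : ‖v‖ + s - δ < ‖v + s • u‖ := by
  have h1 : ‖v + u‖ ≤ ‖v + s • u‖ + ‖(1 - s) • u‖ := by
    have : v + u = (v + s • u) + (1 - s) • u := by module
    rw [this]; exact norm_add_le _ _
  rw [norm_smul, Real.norm_of_nonneg (by linarith)] at h1
  have h2 : (1 - s) * ‖u‖ ≤ (1 - s) * 1 := mul_le_mul_of_nonneg_left hu (by linarith)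
  linarith

lemma good_convex : Convex ℝ {p | GoodPt Φ p} := by
  intro p hp q hq a b ha hb hab v δ hδ
  obtain ⟨u, hu, h1, h2⟩ := hp v (δ / 2) (by positivity)
  obtain ⟨w, hw, h3, h4⟩ := hq (v + a • u) (δ / 2) (by positivity)
  have h5 := lower_scale hu (by linarith : a ≤ 1) h2
  have h6 := lower_scale hw (by linarith : b ≤ 1) h4
  refine ⟨a • u + b • w, ?_, ?_, ?_⟩
  · refine (norm_add_le _ _).trans ?_
    rw [norm_smul, norm_smul, Real.norm_of_nonneg ha, Real.norm_of_nonneg hb]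
    nlinarith [norm_nonneg u, norm_nonneg w]
  · have : Φ (a • u + b • w) - (a • p + b • q) = a • (Φ u - p) + b • (Φ w - q) := by
      rw [map_add, map_smul, map_smul]; module
    rw [this]
    refine (norm_add_le _ _).trans_lt ?_
    rw [norm_smul, norm_smul, Real.norm_of_nonneg ha, Real.norm_of_nonneg hb]
    nlinarith [norm_nonneg (Φ u - p), norm_nonneg (Φ w - q)]
  · rw [← add_assoc]
    linarith

/-- the closed image of the ball -/
def imBall : Set Q := closure (Φ '' Metric.closedBall 0 1)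

lemma imBall_compact : IsCompact (imBall Φ) := by
  have : ProperSpace Q := FiniteDimensional.proper_real _
  exact (Metric.isBounded_closedBall.image Φ).isCompact_closure

lemma good_farthest (hD : HasDaugavetProperty X) (hne : ∃ z : X, ‖z‖ = 1) (c k : Q)
    (hk : k ∈ imBall Φ) (hmax : ∀ p ∈ imBall Φ, ‖p - c‖ ≤ ‖k - c‖) : GoodPt Φ k := by
  intro v δ hδ
  let ψ : X →L[ℝ] ℝ := (innerSL ℝ (k - c)).comp Φ
  have hψ : ∀ u, ψ u = inner ℝ (k - c) (Φ u) := fun u => rfl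
  set τ : ℝ := min (δ / 2) (δ ^ 2 / 8) with hτ
  have hτ0 : 0 < τ := by positivity
  obtain ⟨u, hu, h1, h2⟩ := slice_daugavet hD hne ψ v τ hτ0
  refine ⟨u, hu, ?_, by have := min_le_left (δ / 2) (δ ^ 2 / 8); linarith⟩
  have hsup : inner ℝ (k - c) k ≤ ‖ψ‖ := by
    have hcl : imBall Φ ⊆ {p : Q | inner ℝ (k - c) p ≤ ‖ψ‖} := by
      refine closure_minimal ?_ ?_
      · rintro _ ⟨z, hz, rfl⟩
        rw [mem_closedBall_zero_iff] at hz
        show inner ℝ (k - c) (Φ z) ≤ ‖ψ‖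
        rw [← hψ]
        calc ψ z ≤ ‖ψ z‖ := le_abs_self _
          _ ≤ ‖ψ‖ * ‖z‖ := ψ.le_opNorm z
          _ ≤ ‖ψ‖ * 1 := mul_le_mul_of_nonneg_left hz (norm_nonneg _)
          _ = ‖ψ‖ := mul_one _
      · exact isClosed_le (by fun_prop) continuous_const
    exact hcl hk
  have hΦu : Φ u ∈ imBall Φ := subset_closure ⟨u, by simpa using hu, rfl⟩
  have h3 := hmax _ hΦu
  have h4 : ‖Φ u - k‖ ^ 2 ≤ 2 * τ := by
    have e : Φ u - k = (Φ u - c) - (k - c) := by abel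
    rw [e, norm_sub_sq_real]
    have h5 : inner ℝ (Φ u - c) (k - c) = inner ℝ (k - c) (Φ u) - inner ℝ (k - c) c := by
      rw [real_inner_comm, inner_sub_right]
    have h6 : ‖k - c‖ ^ 2 = inner ℝ (k - c) k - inner ℝ (k - c) c := by
      rw [← inner_sub_right, real_inner_self_eq_norm_sq]
    have h7 : ‖Φ u - c‖ ^ 2 ≤ ‖k - c‖ ^ 2 := pow_le_pow_left₀ (norm_nonneg _) h3 2
    rw [hψ] at h1
    rw [h5]
    linarith
  have h8 : 2 * τ ≤ δ ^ 2 / 4 := by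
    have := min_le_right (δ / 2) (δ ^ 2 / 8)
    linarith
  have h9 : ‖Φ u - k‖ ^ 2 ≤ (δ / 2) ^ 2 := by linarith
  have h10 := (pow_le_pow_iff_left₀ (norm_nonneg _) (by positivity) two_ne_zero).mp h9
  linarith

lemma good_sub_imBall {p : Q} (hp : GoodPt Φ p) : p ∈ imBall Φ := by
  unfold imBall
  rw [Metric.mem_closure_iff]
  intro ε hε
  obtain ⟨u, hu, h1, -⟩ := hp 0 ε hε
  exact ⟨Φ u, ⟨u, by simpa using hu, rfl⟩, by rw [dist_eq_norm, norm_sub_rev]; exact h1⟩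

theorem good_all (hD : HasDaugavetProperty X) (hne : ∃ z : X, ‖z‖ = 1) (p0 : Q)
    (hp0 : p0 ∈ imBall Φ) : GoodPt Φ p0 := by
  by_contra hbad
  have hKne : (imBall Φ).Nonempty := ⟨p0, hp0⟩
  have hfar : ∀ c : Q, ∃ k, GoodPt Φ k ∧ ∀ p ∈ imBall Φ, ‖p - c‖ ≤ ‖k - c‖ := by
    intro c
    obtain ⟨k, hk, hmax⟩ := (imBall_compact Φ).exists_isMaxOn hKne
      (f := fun p => ‖p - c‖) (by fun_prop)
    exact ⟨k, good_farthest Φ hD hne c k hk hmax, hmax⟩
  obtain ⟨k0, hk0, -⟩ := hfar 0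
  -- nearest good point
  obtain ⟨g0, hg0, hmin⟩ := exists_norm_eq_iInf_of_complete_convex (K := {p | GoodPt Φ p})
    ⟨k0, hk0⟩ (good_closed Φ).isComplete (good_convex Φ) p0
  have hproj := (norm_eq_iInf_iff_real_inner_le_zero (good_convex Φ) hg0).mp hmin
  set n := p0 - g0 with hn
  have hn0 : n ≠ 0 := by
    intro h
    rw [hn, sub_eq_zero] at h
    exact hbad (h ▸ hg0)
  have hnpos : 0 < ‖n‖ ^ 2 := by positivity
  obtain ⟨D, hD1⟩ := (imBall_compact Φ).isBounded.exists_norm_le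
  have hD0 : 0 ≤ D := (norm_nonneg _).trans (hD1 p0 hp0)
  set s : ℝ := ((2 * D) ^ 2) / ‖n‖ ^ 2 with hs
  have hs0 : 0 ≤ s := by positivity
  obtain ⟨k, hk, hmax⟩ := hfar (g0 - s • n)
  have h1 := hmax p0 hp0
  have e1 : p0 - (g0 - s • n) = (1 + s) • n := by rw [hn]; module
  have e2 : k - (g0 - s • n) = (k - g0) + s • n := by module
  rw [e1, e2] at h1
  have h2 := pow_le_pow_left₀ (norm_nonneg _) h1 2
  rw [norm_smul, mul_pow, Real.norm_eq_abs, sq_abs, norm_add_sq_real (k - g0) (s • n), norm_smul,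
    mul_pow, real_inner_smul_right, Real.norm_eq_abs, sq_abs] at h2
  have h3 : inner ℝ (k - g0) n ≤ 0 := by
    rw [real_inner_comm]; exact hproj k hk
  have h4 : ‖k - g0‖ ≤ 2 * D := by
    refine (norm_sub_le _ _).trans ?_
    linarith [hD1 k (good_sub_imBall Φ hk), hD1 g0 (good_sub_imBall Φ hg0)]
  have h5 : ‖k - g0‖ ^ 2 ≤ (2 * D) ^ 2 := pow_le_pow_left₀ (norm_nonneg _) h4 2
  have h6 : s * ‖n‖ ^ 2 = (2 * D) ^ 2 := by rw [hs]; field_simp
  nlinarith [mul_nonneg hs0 (neg_nonneg.mpr h3)]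

end Good

/-- Flat directions. -/
theorem daugavet_flat (hD : HasDaugavetProperty X) (x : X) (hx : ‖x‖ = 1) (F : Set X)
    (hF : Cof F) (ε : ℝ) (hε : 0 < ε) :
    ∃ u y : X, ‖u‖ ≤ 1 ∧ y ∈ F ∧ ‖y‖ = 1 ∧ ‖y + (1/2 : ℝ) • (x + u)‖ < ε := by
  have hF0 := hF
  obtain ⟨S, hS, hcl, hfd⟩ := hF
  have : IsClosed (S : Set X) := by rw [hS]; exact hcl
  have : FiniteDimensional ℝ (X ⧸ S) := hfd
  let T : (X ⧸ S) ≃L[ℝ] EuclideanSpace ℝ (Fin (Module.finrank ℝ (X ⧸ S))) := toEuclidean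
  let q : X →L[ℝ] (X ⧸ S) := S.mkQL
  let Φ : X →L[ℝ] EuclideanSpace ℝ (Fin (Module.finrank ℝ (X ⧸ S))) :=
    (T : (X ⧸ S) →L[ℝ] EuclideanSpace ℝ (Fin (Module.finrank ℝ (X ⧸ S)))).comp q
  have hgood : GoodPt Φ (Φ (-x)) := by
    refine good_all Φ hD ⟨x, hx⟩ _ (subset_closure ⟨-x, ?_, rfl⟩)
    simp [hx]
  set C := ‖(T.symm : EuclideanSpace ℝ (Fin (Module.finrank ℝ (X ⧸ S))) →L[ℝ] (X ⧸ S))‖ with hC
  have hC0 : 0 ≤ C := ContinuousLinearMap.opNorm_nonneg _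
  set δ : ℝ := min (ε / 2) (1 / 2) with hδ
  have hδ0 : 0 < δ := by positivity
  obtain ⟨u, hu, h1, h2⟩ := hgood x (δ / (C + 1)) (by positivity)
  rw [hx] at h2
  have hδC : δ / (C + 1) ≤ δ := div_le_self hδ0.le (by linarith)
  have hq : ‖q (x + u)‖ < δ := by
    have e : q (x + u) = T.symm (Φ u - Φ (-x)) := by
      have : Φ u - Φ (-x) = T (q (x + u)) := by
        show T (q u) - T (q (-x)) = T (q (x + u))
        rw [← map_sub, ← map_sub]
        congr 2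
        abel
      rw [this, ContinuousLinearEquiv.symm_apply_apply]
    rw [e]
    have h3 : ‖T.symm (Φ u - Φ (-x))‖ ≤ C * ‖Φ u - Φ (-x)‖ :=
      ContinuousLinearMap.le_opNorm
        (T.symm : EuclideanSpace ℝ (Fin (Module.finrank ℝ (X ⧸ S))) →L[ℝ] (X ⧸ S)) _
    have h4 : C * ‖Φ u - Φ (-x)‖ ≤ C * (δ / (C + 1)) := mul_le_mul_of_nonneg_left h1.le hC0
    have h5 : C * (δ / (C + 1)) < δ := by
      rw [mul_div_assoc', div_lt_iff₀ (by positivity)]
      nlinarith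
    linarith
  obtain ⟨z, hz, hz'⟩ := Submodule.Quotient.norm_mk_lt (S := S)
    (Submodule.Quotient.mk (x + u) : X ⧸ S)
    (ε := δ - ‖(Submodule.Quotient.mk (x + u) : X ⧸ S)‖) (by
      have : ‖(Submodule.Quotient.mk (x + u) : X ⧸ S)‖ = ‖q (x + u)‖ := rfl
      linarith)
  have hz1 : ‖z‖ < δ := by linarith
  set w := (x + u) - z with hw
  have hwF : w ∈ F := by
    rw [← hS, hw]
    exact (Submodule.Quotient.eq S).mp hz.symm
  set y' : X := (-(1/2) : ℝ) • w with hy'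
  have hy'F : y' ∈ F := hF0.smul_mem _ hwF
  have e1 : y' + (1/2 : ℝ) • (x + u) = (1/2 : ℝ) • z := by rw [hy', hw]; module
  have hz2 : ‖(1/2 : ℝ) • z‖ < δ / 2 := by
    rw [norm_smul, Real.norm_of_nonneg (by norm_num)]; linarith
  have h6 : 2 - δ < ‖x + u‖ := by linarith
  have h7 : ‖x + u‖ ≤ 2 := (norm_add_le _ _).trans (by linarith)
  have h8 : ‖y'‖ ≤ 1 + δ / 2 := by
    have : y' = (1/2 : ℝ) • z - (1/2 : ℝ) • (x + u) := by rw [← e1]; abel
    rw [this]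
    refine (norm_sub_le _ _).trans ?_
    rw [norm_smul (1/2 : ℝ) (x + u), Real.norm_of_nonneg (by norm_num : (0:ℝ) ≤ 1/2)]
    linarith
  have h9 : 1 - δ ≤ ‖y'‖ := by
    have h10 : ‖(1/2 : ℝ) • (x + u)‖ ≤ ‖y'‖ + ‖(1/2 : ℝ) • z‖ := by
      have : (1/2 : ℝ) • (x + u) = (1/2 : ℝ) • z - y' := by rw [← e1]; abel
      rw [this]
      exact (norm_sub_le _ _).trans (by linarith)
    rw [norm_smul, Real.norm_of_nonneg (by norm_num)] at h10
    linarith
  have hδ1 : δ ≤ 1 / 2 := min_le_right _ _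
  have hδ2 : δ ≤ ε / 2 := min_le_left _ _
  have hy'0 : 0 < ‖y'‖ := by linarith
  refine ⟨u, ‖y'‖⁻¹ • y', hu, hF0.smul_mem _ hy'F, ?_, ?_⟩
  · rw [norm_smul, norm_inv, norm_norm, inv_mul_cancel₀ hy'0.ne']
  · have e2 : ‖y'‖⁻¹ • y' + (1/2 : ℝ) • (x + u) = (‖y'‖⁻¹ - 1) • y' + (1/2 : ℝ) • z := by
      rw [← e1]; module
    rw [e2]
    refine (norm_add_le _ _).trans_lt ?_
    have h11 : ‖(‖y'‖⁻¹ - 1) • y'‖ = |1 - ‖y'‖| := by
      rw [norm_smul, Real.norm_eq_abs]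
      calc |‖y'‖⁻¹ - 1| * ‖y'‖ = |‖y'‖⁻¹ - 1| * |‖y'‖| := by rw [abs_norm]
        _ = |(‖y'‖⁻¹ - 1) * ‖y'‖| := (abs_mul _ _).symm
        _ = |1 - ‖y'‖| := by congr 1; field_simp
    have h12 : |1 - ‖y'‖| ≤ δ := by rw [abs_le]; constructor <;> linarith
    linarith

end Crest.Agent.H4
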