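import Mathlib
import Crest.Prelude.Def_Diamond
import Crest.Agent.H4.AP

/-! Countably branching diamonds in spaces with the asymptotic two-point estimate. -/

set_option autoImplicit false

namespace Crest.Agent.H4

open Crest.AnalysisR Filter Topology

lemma src_ne_tgt (k : ℕ) (e : DiamondEdge k) : diamondSrc k e ≠ diamondTgt k e := by
  cases k with
  | zero => exact Bool.false_ne_true
  | succ k =>
    obtain ⟨e, i, b⟩ := e
    cases b with
    | false => exact Sum.inl_ne_inr
    | true => exact Sum.inr_ne_inl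

lemma adj_edge (k : ℕ) (e : DiamondEdge k) :
    (diamondGraph k).Adj (diamondSrc k e) (diamondTgt k e) := by
  rw [diamondGraph, SimpleGraph.fromRel_adj]
  exact ⟨src_ne_tgt k e, Or.inl ⟨e, rfl, rfl⟩⟩

lemma adj_cases (k : ℕ) {u v : DiamondVertex k} (h : (diamondGraph k).Adj u v) :
    ∃ e, (diamondSrc k e = u ∧ diamondTgt k e = v) ∨ (diamondSrc k e = v ∧ diamondTgt k e = u) := by
  rw [diamondGraph, SimpleGraph.fromRel_adj] at h
  rcases h.2 with ⟨e, he⟩ | ⟨e, he⟩
  · exact ⟨e, Or.inl he⟩
  · exact ⟨e, Or.inr he⟩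

lemma adj_src (k : ℕ) (e : DiamondEdge k) (i : ℕ) :
    (diamondGraph (k + 1)).Adj (Sum.inl (diamondSrc k e)) (Sum.inr (e, i)) :=
  adj_edge (k + 1) (e, i, false)

lemma adj_tgt (k : ℕ) (e : DiamondEdge k) (i : ℕ) :
    (diamondGraph (k + 1)).Adj (Sum.inr (e, i)) (Sum.inl (diamondTgt k e)) :=
  adj_edge (k + 1) (e, i, true)

lemma reach_inl (k : ℕ) {u v : DiamondVertex k} (w : (diamondGraph k).Walk u v) :
    (diamondGraph (k + 1)).Reachable (Sum.inl u) (Sum.inl v) := by
  induction w with
  | nil => exact SimpleGraph.Reachable.refl _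
  | cons h _ ih =>
    refine SimpleGraph.Reachable.trans ?_ ih
    obtain ⟨e, ⟨rfl, rfl⟩ | ⟨rfl, rfl⟩⟩ := adj_cases k h
    · exact (adj_src k e 0).reachable.trans (adj_tgt k e 0).reachable
    · exact ((adj_src k e 0).reachable.trans (adj_tgt k e 0).reachable).symm

lemma diamond_connected (k : ℕ) : (diamondGraph k).Connected := by
  induction k with
  | zero =>
    have h : (diamondGraph 0).Adj false true := adj_edge 0 ()
    refine @SimpleGraph.Connected.mk _ _ (fun u v => ?_) ⟨(false : Bool)⟩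
    rcases u with _ | _ <;> rcases v with _ | _
    · exact SimpleGraph.Reachable.refl _
    · exact h.reachable
    · exact h.symm.reachable
    · exact SimpleGraph.Reachable.refl _
  | succ k ih =>
    have hinl : ∀ u v : DiamondVertex k,
        (diamondGraph (k + 1)).Reachable (Sum.inl u) (Sum.inl v) := fun u v => by
      obtain ⟨w⟩ := ih.preconnected u v
      exact reach_inl k w
    have hto : ∀ x : DiamondVertex (k + 1), ∃ u : DiamondVertex k,
        (diamondGraph (k + 1)).Reachable x (Sum.inl u) := by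
      intro x
      rcases x with u | ⟨e, i⟩
      · exact ⟨u, SimpleGraph.Reachable.refl _⟩
      · exact ⟨_, (adj_tgt k e i).reachable⟩
    obtain ⟨u0⟩ := ih.nonempty
    refine @SimpleGraph.Connected.mk _ _ (fun x y => ?_) ⟨Sum.inl u0⟩
    obtain ⟨u, hu⟩ := hto x
    obtain ⟨v, hv⟩ := hto y
    exact hu.trans ((hinl u v).trans hv.symm)

lemma lip_dist {V : Type} (G : SimpleGraph V) (hG : G.Connected) (φ : V → ℤ)
    (hφ : ∀ a b, G.Adj a b → |φ a - φ b| ≤ 1) (u v : V) : |φ u - φ v| ≤ (G.dist u v : ℤ) := by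
  obtain ⟨w, hw⟩ := hG.exists_walk_length_eq_dist u v
  rw [← hw]
  clear hw
  induction w with
  | nil => simp
  | @cons a b c h p ih =>
    rw [SimpleGraph.Walk.length_cons]
    push_cast
    have h1 := hφ _ _ h
    have h2 : |φ a - φ c| ≤ |φ a - φ b| + |φ b - φ c| := abs_sub_le _ _ _
    linarith

lemma dist_double (k : ℕ) (u v : DiamondVertex k) :
    2 * diamondDist k u v ≤ diamondDist (k + 1) (Sum.inl u) (Sum.inl v) := by
  have hc := diamond_connected k
  let φ : DiamondVertex (k + 1) → ℤ := fun x => match x with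
    | Sum.inl w => 2 * ((diamondGraph k).dist u w : ℤ)
    | Sum.inr (e, _) => ((diamondGraph k).dist u (diamondSrc k e) : ℤ)
        + (diamondGraph k).dist u (diamondTgt k e)
  have hedge : ∀ e : DiamondEdge k, |((diamondGraph k).dist u (diamondSrc k e) : ℤ)
      - (diamondGraph k).dist u (diamondTgt k e)| ≤ 1 := by
    intro e
    have h1 : (diamondGraph k).dist (diamondSrc k e) (diamondTgt k e) = 1 :=
      SimpleGraph.dist_eq_one_iff_adj.mpr (adj_edge k e)
    have h2 := hc.dist_triangle (u := u) (v := diamondSrc k e) (w := diamondTgt k e)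
    have h3 := hc.dist_triangle (u := u) (v := diamondTgt k e) (w := diamondSrc k e)
    rw [SimpleGraph.dist_comm (u := diamondTgt k e) (v := diamondSrc k e)] at h3
    rw [h1] at h2 h3
    rw [abs_le]
    constructor <;> omega
  have hE : ∀ e : DiamondEdge (k + 1),
      |φ (diamondSrc (k + 1) e) - φ (diamondTgt (k + 1) e)| ≤ 1 := by
    rintro ⟨e, i, b⟩
    have h := hedge e
    rw [abs_le] at h ⊢
    cases b with
    | false =>
      show _ ≤ 2 * ((diamondGraph k).dist u (diamondSrc k e) : ℤ)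
        - (((diamondGraph k).dist u (diamondSrc k e) : ℤ)
        + (diamondGraph k).dist u (diamondTgt k e)) ∧ 2 * ((diamondGraph k).dist u (diamondSrc k e) : ℤ)
        - (((diamondGraph k).dist u (diamondSrc k e) : ℤ)
        + (diamondGraph k).dist u (diamondTgt k e)) ≤ _
      constructor <;> linarith [h.1, h.2]
    | true =>
      show _ ≤ (((diamondGraph k).dist u (diamondSrc k e) : ℤ)
        + (diamondGraph k).dist u (diamondTgt k e)) - 2 * ((diamondGraph k).dist u (diamondTgt k e) : ℤ)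
         ∧ (((diamondGraph k).dist u (diamondSrc k e) : ℤ)
        + (diamondGraph k).dist u (diamondTgt k e)) - 2 * ((diamondGraph k).dist u (diamondTgt k e) : ℤ) ≤ _
      constructor <;> linarith [h.1, h.2]
  have h := lip_dist (diamondGraph (k + 1)) (diamond_connected (k + 1)) φ (by
    intro a b hab
    obtain ⟨e, ⟨rfl, rfl⟩ | ⟨rfl, rfl⟩⟩ := adj_cases (k + 1) hab
    · exact hE e
    · rw [abs_sub_comm]; exact hE e) (Sum.inl u) (Sum.inl v)
  have e1 : φ (Sum.inl u) = 2 * ((diamondGraph k).dist u u : ℤ) := rfl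
  have e2 : φ (Sum.inl v) = 2 * ((diamondGraph k).dist u v : ℤ) := rfl
  rw [e1, e2, SimpleGraph.dist_self] at h
  rw [abs_le] at h
  unfold diamondDist
  have := h.1
  omega

lemma mid_dist (k : ℕ) (e : DiamondEdge k) (i j : ℕ) (h : i ≠ j) :
    2 ≤ diamondDist (k + 1) (Sum.inr (e, i)) (Sum.inr (e, j)) := by
  have hne : (Sum.inr (e, i) : DiamondVertex (k + 1)) ≠ Sum.inr (e, j) := by
    intro h1
    have := Sum.inr.inj h1
    exact h (congrArg Prod.snd this)
  have hna : ¬ (diamondGraph (k + 1)).Adj (Sum.inr (e, i)) (Sum.inr (e, j)) := by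
    intro hadj
    obtain ⟨⟨e', i', b⟩, h1 | h1⟩ := adj_cases (k + 1) hadj <;> cases b
    · exact absurd h1.1 Sum.inl_ne_inr
    · exact absurd h1.2 Sum.inl_ne_inr
    · exact absurd h1.1 Sum.inl_ne_inr
    · exact absurd h1.2 Sum.inl_ne_inr
  exact (diamond_connected (k + 1)).one_lt_dist_of_ne_of_not_adj hne hna

variable {X : Type} [NormedAddCommGroup X] [NormedSpace ℝ X]

lemma AP.diamond_aux (h : AP X) (k : ℕ) : ∀ (f : DiamondVertex k → X) (s D : ℝ), 0 < s → 0 ≤ D →
    (∀ u v, s * (diamondDist k u v : ℝ) ≤ ‖f u - f v‖) →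
    (∀ e, ‖f (diamondSrc k e) - f (diamondTgt k e)‖ ≤ D * s) → 1 + (k : ℝ) / 4 ≤ D ^ 2 := by
  induction k with
  | zero =>
    intro f s D hs hD hlow hup
    have h1 := hlow (diamondSrc 0 ()) (diamondTgt 0 ())
    have h2 := hup ()
    have h3 : diamondDist 0 (diamondSrc 0 ()) (diamondTgt 0 ()) = 1 :=
      SimpleGraph.dist_eq_one_iff_adj.mpr (adj_edge 0 ())
    rw [h3] at h1
    have h4 : s * 1 ≤ s * D := by push_cast at h1; linarith
    have h5 : 1 ≤ D := le_of_mul_le_mul_left h4 hs
    push_cast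
    nlinarith
  | succ k ih =>
    intro f s D hs hD hlow hup
    have key : ∀ e : DiamondEdge k, ‖f (Sum.inl (diamondSrc k e)) - f (Sum.inl (diamondTgt k e))‖ ^ 2
        ≤ (2 * s) ^ 2 * (D ^ 2 - 1 / 4) := by
      intro e
      set u := f (Sum.inl (diamondSrc k e)) with hu
      set v := f (Sum.inl (diamondTgt k e)) with hv
      let m : ℕ → X := fun i => f (Sum.inr (e, i))
      have hstep := h.step ((1/2 : ℝ) • (u - v)) (fun i => m i - (1/2 : ℝ) • (u + v)) (D * s) s hs
        (fun i => by
          have e1 : (1/2 : ℝ) • (u - v) - (m i - (1/2 : ℝ) • (u + v)) = u - m i := by module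
          rw [e1]
          exact hup (e, i, false))
        (fun i => by
          have e1 : (1/2 : ℝ) • (u - v) + (m i - (1/2 : ℝ) • (u + v)) = m i - v := by module
          rw [e1]
          exact hup (e, i, true))
        (fun i j hij => by
          have e1 : (m i - (1/2 : ℝ) • (u + v)) - (m j - (1/2 : ℝ) • (u + v)) = m i - m j := by
            abel
          rw [e1]
          have h1 := hlow (Sum.inr (e, i)) (Sum.inr (e, j))
          have h2 : (2 : ℝ) ≤ (diamondDist (k + 1) (Sum.inr (e, i)) (Sum.inr (e, j)) : ℝ) := by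
            exact_mod_cast mid_dist k e i j hij
          have h3 : s * 2 ≤ s * (diamondDist (k + 1) (Sum.inr (e, i)) (Sum.inr (e, j)) : ℝ) :=
            mul_le_mul_of_nonneg_left h2 hs.le
          show 2 * s ≤ ‖f (Sum.inr (e, i)) - f (Sum.inr (e, j))‖
          linarith)
      rw [norm_smul, Real.norm_of_nonneg (by norm_num : (0:ℝ) ≤ 1/2)] at hstep
      nlinarith
    have hDD : 0 ≤ D ^ 2 - 1 / 4 := by
      obtain ⟨e⟩ : Nonempty (DiamondEdge k) := by
        clear * -
        induction k with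
        | zero => exact ⟨()⟩
        | succ k ih => obtain ⟨e⟩ := ih; exact ⟨(e, 0, true)⟩
      have h1 := key e
      by_contra hcon
      push Not at hcon
      have : (2 * s) ^ 2 * (D ^ 2 - 1 / 4) < 0 := mul_neg_of_pos_of_neg (by positivity) hcon
      nlinarith [sq_nonneg ‖f (Sum.inl (diamondSrc k e)) - f (Sum.inl (diamondTgt k e))‖]
    have h1 := ih (fun x => f (Sum.inl x)) (2 * s) (Real.sqrt (D ^ 2 - 1 / 4)) (by positivity)
      (Real.sqrt_nonneg _) (fun u v => by
        have h1 := hlow (Sum.inl u) (Sum.inl v)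
        have h2 : (2 : ℝ) * (diamondDist k u v : ℝ)
            ≤ (diamondDist (k + 1) (Sum.inl u) (Sum.inl v) : ℝ) := by
          exact_mod_cast dist_double k u v
        have h3 := mul_le_mul_of_nonneg_left h2 hs.le
        linarith) (fun e => by
        have h1 := key e
        have h2 : (Real.sqrt (D ^ 2 - 1 / 4) * (2 * s)) ^ 2 = (2 * s) ^ 2 * (D ^ 2 - 1 / 4) := by
          rw [mul_pow, Real.sq_sqrt hDD]; ring
        rw [← h2] at h1
        exact (pow_le_pow_iff_left₀ (norm_nonneg _) (by positivity) two_ne_zero).mp h1)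
    rw [Real.sq_sqrt hDD] at h1
    push_cast
    linarith

theorem AP.diamond [CompleteSpace X] (h : AP X) (k : ℕ) (f : DiamondVertex k → X) (D : ℝ)
    (hf : (RB X).HasDistortionLE k f D) : 1 + (k : ℝ) / 4 ≤ D ^ 2 := by
  obtain ⟨s, hs, hf⟩ := hf
  replace hf : ∀ u v : DiamondVertex k,
    s * (diamondDist k u v : ℝ) ≤ ‖f u - f v‖ ∧ ‖f u - f v‖ ≤ D * s * (diamondDist k u v : ℝ) := hf
  have hD : 0 ≤ D := by
    obtain ⟨e⟩ : Nonempty (DiamondEdge k) := by
      clear * -
      induction k with
      | zero => exact ⟨()⟩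
      | succ k ih => obtain ⟨e⟩ := ih; exact ⟨(e, 0, true)⟩
    have h1 := hf (diamondSrc k e) (diamondTgt k e)
    have h3 : diamondDist k (diamondSrc k e) (diamondTgt k e) = 1 :=
      SimpleGraph.dist_eq_one_iff_adj.mpr (adj_edge k e)
    rw [h3] at h1
    by_contra hcon
    push Not at hcon
    have : D * s < 0 := mul_neg_of_neg_of_pos hcon hs
    push_cast at h1
    linarith [h1.1, h1.2]
  refine h.diamond_aux k f s D hs hD (fun u v => (hf u v).1) (fun e => ?_)
  have h3 : diamondDist k (diamondSrc k e) (diamondTgt k e) = 1 :=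
    SimpleGraph.dist_eq_one_iff_adj.mpr (adj_edge k e)
  have h1 := (hf (diamondSrc k e) (diamondTgt k e)).2
  rw [h3] at h1
  simpa using h1

end Crest.Agent.H4
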