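import Mathlib
import Crest.Agent.H4.AP

/-! ℓ²-sums of Banach spaces: asymptotic two-point estimate and reflexivity. -/

set_option autoImplicit false
set_option linter.unusedSectionVars false
set_option linter.unusedVariables false

namespace Crest.Agent.H4

open Filter Topology

section

variable {G : ℕ → Type} [∀ n, NormedAddCommGroup (G n)] [∀ n, NormedSpace ℝ (G n)]

lemma hasSum_sq {ι : Type} {H : ι → Type} [∀ n, NormedAddCommGroup (H n)] (f : lp H 2) :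
    HasSum (fun n => ‖f n‖ ^ 2) (‖f‖ ^ 2) := by
  have := lp.hasSum_norm (p := 2) (by norm_num) f
  simpa using this

lemma sum_sq_le {ι : Type} {H : ι → Type} [∀ n, NormedAddCommGroup (H n)] (f : lp H 2)
    (A : Finset ι) : ∑ n ∈ A, ‖f n‖ ^ 2 ≤ ‖f‖ ^ 2 :=
  sum_le_hasSum A (fun n _ => sq_nonneg _) (hasSum_sq f)

lemma norm_sum_single_sq (A : Finset ℕ) (f : ∀ n, G n) :
    ‖∑ n ∈ A, lp.single 2 n (f n)‖ ^ 2 = ∑ n ∈ A, ‖f n‖ ^ 2 := by
  have := lp.norm_sum_single (p := 2) (by norm_num) f A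
  simpa using this

lemma mem_two {ι : Type} {H : ι → Type} [∀ n, NormedAddCommGroup (H n)] (f : ∀ n, H n) (C : ℝ)
    (h : ∀ A : Finset ι, ∑ n ∈ A, ‖f n‖ ^ 2 ≤ C) : Memℓp f 2 := by
  refine memℓp_gen' (C := C) fun A => ?_
  simpa using h A

/-- two-point lower estimate in the `ℓ²` sum -/
lemma lp_lower (x y : lp G 2) (a b e : lp (fun _ : ℕ => ℝ) 2)
    (h : ∀ n, 2 * Real.sqrt (‖x n‖ ^ 2 + ‖y n‖ ^ 2 / 4) ≤ a n + b n + e n) :
    2 * Real.sqrt (‖x‖ ^ 2 + ‖y‖ ^ 2 / 4) ≤ ‖a‖ + ‖b‖ + ‖e‖ := by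
  have h1 : HasSum (fun n => 4 * (‖x n‖ ^ 2 + ‖y n‖ ^ 2 / 4)) (4 * (‖x‖ ^ 2 + ‖y‖ ^ 2 / 4)) :=
    ((hasSum_sq x).add ((hasSum_sq y).div_const 4)).mul_left 4
  have h2 := hasSum_sq (a + b + e)
  have h3 : 4 * (‖x‖ ^ 2 + ‖y‖ ^ 2 / 4) ≤ ‖a + b + e‖ ^ 2 := by
    refine hasSum_le (fun n => ?_) h1 h2
    have h4 : (a + b + e) n = a n + b n + e n := rfl
    rw [h4, Real.norm_eq_abs, sq_abs]
    have h5 := h n
    have h6 : 0 ≤ 2 * Real.sqrt (‖x n‖ ^ 2 + ‖y n‖ ^ 2 / 4) := by positivity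
    have h7 := pow_le_pow_left₀ h6 h5 2
    rw [mul_pow, Real.sq_sqrt (by positivity)] at h7
    linarith
  have h8 : 2 * Real.sqrt (‖x‖ ^ 2 + ‖y‖ ^ 2 / 4) ≤ ‖a + b + e‖ := by
    refine (pow_le_pow_iff_left₀ (by positivity) (norm_nonneg _) two_ne_zero).mp ?_
    rw [mul_pow, Real.sq_sqrt (by positivity)]
    linarith
  exact h8.trans ((norm_add_le _ _).trans (by linarith [norm_add_le a b]))

theorem ap_lp (h : ∀ n, AP (G n)) : AP (lp G 2) := by
  classical
  intro x ε hε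
  -- finitely supported approximation
  have hs := lp.hasSum_single (p := 2) (by norm_num) x
  rw [HasSum, Metric.tendsto_nhds] at hs
  obtain ⟨A, hA⟩ := (hs (ε / 8) (by positivity)).exists
  set xA : lp G 2 := ∑ n ∈ A, lp.single 2 n (x n) with hxA
  rw [dist_eq_norm] at hA
  have hxAn : ∀ n, xA n = if n ∈ A then x n else 0 := by
    intro n
    rw [hxA, lp.coeFn_sum, Finset.sum_apply]
    simp only [lp.coeFn_single]
    rw [Finset.sum_pi_single]
  set δ : ℝ := ε / (4 * (A.card + 1)) with hδ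
  have hδ0 : 0 < δ := by positivity
  choose F hF hF' using fun n => h n (x n) δ hδ0
  refine ⟨{y | ∀ n ∈ A, y ∈ (lp.evalCLM (𝕜 := ℝ) G 2 n) ⁻¹' (F n)},
    Cof.forall_mem A _ fun n _ => (hF n).comap _, ?_⟩
  intro y hy
  have hyA : ∀ n ∈ A, y n ∈ F n := fun n hn => hy n hn
  let e : lp (fun _ : ℕ => ℝ) 2 := ∑ n ∈ A, lp.single 2 n δ
  have hen : ∀ n, e n = if n ∈ A then δ else 0 := by
    intro n
    show (∑ n ∈ A, lp.single 2 n δ : lp (fun _ : ℕ => ℝ) 2) n = _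
    rw [lp.coeFn_sum, Finset.sum_apply]
    simp only [lp.coeFn_single]
    rw [Finset.sum_pi_single]
  have he : ‖e‖ ≤ ε / 4 := by
    refine (norm_sum_le _ _).trans ?_
    have : ∀ n ∈ A, ‖(lp.single 2 n δ : lp (fun _ : ℕ => ℝ) 2)‖ = δ := fun n _ => by
      rw [lp.norm_single (by norm_num), Real.norm_of_nonneg hδ0.le]
    rw [Finset.sum_congr rfl this, Finset.sum_const, nsmul_eq_mul, hδ, mul_div_assoc',
      div_le_div_iff₀ (by positivity) (by norm_num)]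
    nlinarith
  have hmain := lp_lower xA y (lp.toNorm (xA + y)) (lp.toNorm (xA - y)) e (fun n => by
    have e1 : (lp.toNorm (xA + y)) n = ‖xA n + y n‖ := rfl
    have e2 : (lp.toNorm (xA - y)) n = ‖xA n - y n‖ := rfl
    rw [e1, e2, hxAn, hen]
    by_cases hn : n ∈ A
    · simp only [hn, if_true]
      exact hF' n (y n) (hyA n hn)
    · simp only [hn, if_false, norm_zero, zero_add, zero_sub, norm_neg]
      have : Real.sqrt (0 ^ 2 + ‖y n‖ ^ 2 / 4) = ‖y n‖ / 2 := by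
        have : (0:ℝ) ^ 2 + ‖y n‖ ^ 2 / 4 = (‖y n‖ / 2) ^ 2 := by ring
        rw [this, Real.sqrt_sq (by positivity)]
      rw [this]; linarith [norm_nonneg (y n)])
  rw [lp.norm_toNorm, lp.norm_toNorm] at hmain
  have h1 : ‖xA + y‖ ≤ ‖x + y‖ + ε / 8 := by
    have : xA + y = (x + y) + (xA - x) := by abel
    rw [this]; exact (norm_add_le _ _).trans (by linarith)
  have h2 : ‖xA - y‖ ≤ ‖x - y‖ + ε / 8 := by
    have : xA - y = (x - y) + (xA - x) := by abel
    rw [this]; exact (norm_add_le _ _).trans (by linarith)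
  have h3 := sq1 ‖x‖ ‖xA‖ ‖y‖
  have h4 : |‖x‖ - ‖xA‖| ≤ ε / 8 := (abs_norm_sub_norm_le _ _).trans (by
    rw [norm_sub_rev]; exact hA.le)
  linarith

theorem sep_lp (h : ∀ n, TopologicalSpace.SeparableSpace (G n)) :
    TopologicalSpace.SeparableSpace (lp G 2) := by
  have h1 : TopologicalSpace.IsSeparable (⋃ n, Set.range (fun u : G n => lp.single 2 n u)) := by
    refine TopologicalSpace.IsSeparable.iUnion fun n => ?_
    exact TopologicalSpace.isSeparable_range (lp.isometry_single n).continuous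
  have h2 := (h1.span (R := ℝ)).closure
  rw [← TopologicalSpace.isSeparable_univ_iff]
  refine h2.mono fun x _ => ?_
  refine mem_closure_of_tendsto (lp.hasSum_single (p := 2) (by norm_num) x)
    (Filter.Eventually.of_forall fun A => ?_)
  refine Submodule.sum_mem _ fun n _ => Submodule.subset_span ?_
  exact Set.mem_iUnion.mpr ⟨n, ⟨x n, rfl⟩⟩

/-- the isometric inclusion of a component -/
noncomputable def sgl (n : ℕ) : G n →ₗᵢ[ℝ] lp G 2 :=
  { toLinearMap := lp.lsingle (𝕜 := ℝ) 2 n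
    norm_map' := fun x => lp.norm_single (by norm_num) n x }

end

/-! ### Reflexivity -/

section

/-- reflexivity -/
def Refl (X : Type) [NormedAddCommGroup X] [NormedSpace ℝ X] : Prop :=
  ∀ Φ : StrongDual ℝ (StrongDual ℝ X), ∃ x : X, ∀ f : StrongDual ℝ X, Φ f = f x

lemma Refl.surj {X : Type} [NormedAddCommGroup X] [NormedSpace ℝ X] (h : Refl X) :
    Function.Surjective (NormedSpace.inclusionInDoubleDual ℝ X) := by
  intro Φ
  obtain ⟨x, hx⟩ := h Φ
  refine ⟨x, ?_⟩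
  ext f
  rw [NormedSpace.dual_def, hx]

lemma Refl.equiv {X Y : Type} [NormedAddCommGroup X] [NormedSpace ℝ X] [NormedAddCommGroup Y]
    [NormedSpace ℝ Y] (T : X ≃L[ℝ] Y) (h : Refl Y) : Refl X := by
  intro Φ
  let P : StrongDual ℝ Y →L[ℝ] StrongDual ℝ X :=
    (ContinuousLinearMap.compL ℝ X Y ℝ).flip (T : X →L[ℝ] Y)
  obtain ⟨y, hy⟩ := h (Φ.comp P)
  refine ⟨T.symm y, fun f => ?_⟩
  have h1 := hy (f.comp (T.symm : Y →L[ℝ] X))
  have h2 : P (f.comp (T.symm : Y →L[ℝ] X)) = f := by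
    ext x
    show f (T.symm (T x)) = f x
    rw [T.symm_apply_apply]
  rw [ContinuousLinearMap.comp_apply, h2] at h1
  exact h1

lemma refl_hilbert {H : Type} [NormedAddCommGroup H] [InnerProductSpace ℝ H] [CompleteSpace H] :
    Refl H := by
  intro Φ
  let D := InnerProductSpace.toDual ℝ H
  let Ψ : StrongDual ℝ H := LinearMap.mkContinuous
    { toFun := fun y => Φ (D y)
      map_add' := fun x y => by rw [map_add, map_add]
      map_smul' := fun c y => by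
        rw [LinearIsometryEquiv.map_smulₛₗ, RCLike.conj_to_real, map_smul]; rfl } ‖Φ‖
    (fun y => by
      refine (Φ.le_opNorm (D y)).trans ?_
      rw [LinearIsometryEquiv.norm_map])
  refine ⟨D.symm Ψ, fun f => ?_⟩
  have h1 : Φ f = Ψ (D.symm f) := by
    show Φ f = Φ (D (D.symm f))
    rw [LinearIsometryEquiv.apply_symm_apply]
  have h2 : Ψ (D.symm f) = inner ℝ (D.symm Ψ) (D.symm f) := by
    rw [← InnerProductSpace.toDual_apply_apply (𝕜 := ℝ)]
    show _ = (D (D.symm Ψ)) _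
    rw [LinearIsometryEquiv.apply_symm_apply]
  have h3 : f (D.symm Ψ) = inner ℝ (D.symm f) (D.symm Ψ) := by
    rw [← InnerProductSpace.toDual_apply_apply (𝕜 := ℝ)]
    show _ = (D (D.symm f)) _
    rw [LinearIsometryEquiv.apply_symm_apply]
  rw [h1, h2, h3, real_inner_comm]

variable {G : ℕ → Type} [∀ n, NormedAddCommGroup (G n)] [∀ n, NormedSpace ℝ (G n)]

/-- square function bound implies membership bound -/
lemma sqrt_bound (S C : ℝ) (hS : 0 ≤ S) (h : S ≤ C * Real.sqrt S) : S ≤ C ^ 2 := by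
  have h3 : Real.sqrt S ^ 2 = S := Real.sq_sqrt hS
  have h4 : 0 ≤ Real.sqrt S := Real.sqrt_nonneg _
  rcases h4.eq_or_lt with h0 | h0
  · rw [← h3, ← h0]; nlinarith [sq_nonneg C]
  · have h5 : Real.sqrt S ≤ C := by
      by_contra hcon
      push Not at hcon
      nlinarith
    rw [← h3]
    exact pow_le_pow_left₀ h4 h5 2

/-- components of a functional are square summable -/
lemma dual_sq (f : StrongDual ℝ (lp G 2)) (A : Finset ℕ) :
    ∑ n ∈ A, ‖f.comp (lp.singleContinuousLinearMap ℝ G 2 n)‖ ^ 2 ≤ (2 * ‖f‖) ^ 2 := by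
  set a : ℕ → ℝ := fun n => ‖f.comp (lp.singleContinuousLinearMap ℝ G 2 n)‖ with ha
  have ha0 : ∀ n, 0 ≤ a n := fun n => norm_nonneg _
  have hu : ∀ n, ∃ u : G n, ‖u‖ ≤ 1 ∧ a n / 2 ≤ f (lp.single 2 n u) := by
    intro n
    rcases (ha0 n).eq_or_lt with h0 | h0
    · exact ⟨0, by simp, by rw [← h0, lp.single_zero]; simp⟩
    · obtain ⟨u, hu1, hu2⟩ := ContinuousLinearMap.exists_lt_apply_of_lt_opNorm
        (f.comp (lp.singleContinuousLinearMap ℝ G 2 n)) (show a n / 2 < a n by linarith)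
      have h3 : a n / 2 < |f (lp.single 2 n u)| := hu2
      rcases le_total 0 (f (lp.single 2 n u)) with h | h
      · exact ⟨u, hu1.le, by rw [abs_of_nonneg h] at h3; exact h3.le⟩
      · refine ⟨-u, by rw [norm_neg]; exact hu1.le, ?_⟩
        rw [lp.single_neg, map_neg]
        rw [abs_of_nonpos h] at h3; exact h3.le
  choose u hu1 hu2 using hu
  set y : lp G 2 := ∑ n ∈ A, lp.single 2 n (a n • u n) with hy
  have hyn : ‖y‖ ^ 2 ≤ ∑ n ∈ A, a n ^ 2 := by
    rw [hy, norm_sum_single_sq A (fun n => a n • u n)]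
    refine Finset.sum_le_sum fun n _ => ?_
    rw [norm_smul, mul_pow, Real.norm_of_nonneg (ha0 n)]
    have : ‖u n‖ ^ 2 ≤ 1 := by
      have := pow_le_pow_left₀ (norm_nonneg _) (hu1 n) 2
      rwa [one_pow] at this
    nlinarith [sq_nonneg (a n)]
  have hyn' : ‖y‖ ≤ Real.sqrt (∑ n ∈ A, a n ^ 2) := Real.le_sqrt_of_sq_le hyn
  have hfy : (∑ n ∈ A, a n ^ 2) / 2 ≤ f y := by
    rw [hy, map_sum, Finset.sum_div]
    refine Finset.sum_le_sum fun n _ => ?_
    rw [lp.single_smul, map_smul, smul_eq_mul]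
    nlinarith [hu2 n, ha0 n]
  have h1 : ∑ n ∈ A, a n ^ 2 ≤ (2 * ‖f‖) * Real.sqrt (∑ n ∈ A, a n ^ 2) := by
    have h2 : f y ≤ ‖f‖ * ‖y‖ := (le_abs_self _).trans (f.le_opNorm y)
    have h3 : ‖f‖ * ‖y‖ ≤ ‖f‖ * Real.sqrt (∑ n ∈ A, a n ^ 2) :=
      mul_le_mul_of_nonneg_left hyn' (norm_nonneg _)
    linarith
  exact sqrt_bound _ _ (Finset.sum_nonneg fun n _ => sq_nonneg _) h1

/-- Cauchy–Schwarz for finite sums of functionals on components -/
lemma sum_comp_le (g : ∀ n, StrongDual ℝ (G n)) (A : Finset ℕ) (y : lp G 2) :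
    |∑ n ∈ A, g n (y n)| ≤ Real.sqrt (∑ n ∈ A, ‖g n‖ ^ 2) * ‖y‖ := by
  calc |∑ n ∈ A, g n (y n)| ≤ ∑ n ∈ A, |g n (y n)| := Finset.abs_sum_le_sum_abs _ _
    _ ≤ ∑ n ∈ A, ‖g n‖ * ‖y n‖ := Finset.sum_le_sum fun n _ => (g n).le_opNorm _
    _ ≤ Real.sqrt (∑ n ∈ A, ‖g n‖ ^ 2) * Real.sqrt (∑ n ∈ A, ‖y n‖ ^ 2) :=
        Real.sum_mul_le_sqrt_mul_sqrt _ _ _
    _ ≤ _ := by
        refine mul_le_mul_of_nonneg_left ?_ (Real.sqrt_nonneg _)
        rw [← Real.sqrt_sq (norm_nonneg y)]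
        exact Real.sqrt_le_sqrt (sum_sq_le y A)

/-- finite sum of functionals on components, as a functional -/
noncomputable def fsum (g : ∀ n, StrongDual ℝ (G n)) (A : Finset ℕ) : StrongDual ℝ (lp G 2) :=
  ∑ n ∈ A, (g n).comp (lp.evalCLM (𝕜 := ℝ) G 2 n)

lemma fsum_apply (g : ∀ n, StrongDual ℝ (G n)) (A : Finset ℕ) (y : lp G 2) :
    fsum g A y = ∑ n ∈ A, g n (y n) := by
  unfold fsum
  rw [sum_apply]
  rfl

lemma norm_fsum_le (g : ∀ n, StrongDual ℝ (G n)) (A : Finset ℕ) :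
    ‖fsum g A‖ ≤ Real.sqrt (∑ n ∈ A, ‖g n‖ ^ 2) := by
  refine ContinuousLinearMap.opNorm_le_bound _ (Real.sqrt_nonneg _) fun y => ?_
  rw [fsum_apply, Real.norm_eq_abs]
  exact sum_comp_le g A y

theorem refl_lp (h : ∀ n, Refl (G n)) : Refl (lp G 2) := by
  classical
  intro Φ
  let P : ∀ n, StrongDual ℝ (G n) →L[ℝ] StrongDual ℝ (lp G 2) := fun n =>
    (ContinuousLinearMap.compL ℝ (lp G 2) (G n) ℝ).flip (lp.evalCLM (𝕜 := ℝ) G 2 n)
  have hP : ∀ n (g : StrongDual ℝ (G n)), P n g = g.comp (lp.evalCLM (𝕜 := ℝ) G 2 n) :=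
    fun n g => rfl
  choose x hx using fun n => h n (Φ.comp (P n))
  have hx' : ∀ n (g : StrongDual ℝ (G n)), Φ (g.comp (lp.evalCLM (𝕜 := ℝ) G 2 n)) = g (x n) :=
    fun n g => hx n g
  have hbound : ∀ A : Finset ℕ, ∑ n ∈ A, ‖x n‖ ^ 2 ≤ ‖Φ‖ ^ 2 := by
    intro A
    choose g hg1 hg2 using fun n => exists_dual_vector'' ℝ (x n)
    have h1 : Φ (fsum (fun n => ‖x n‖ • g n) A) = ∑ n ∈ A, ‖x n‖ ^ 2 := by
      unfold fsum
      rw [map_sum]
      refine Finset.sum_congr rfl fun n _ => ?_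
      rw [hx', smul_apply, hg2 n]
      simp [sq]
    have h2 : ‖fsum (fun n => ‖x n‖ • g n) A‖ ≤ Real.sqrt (∑ n ∈ A, ‖x n‖ ^ 2) := by
      refine (norm_fsum_le _ _).trans (Real.sqrt_le_sqrt ?_)
      refine Finset.sum_le_sum fun n _ => ?_
      rw [norm_smul, mul_pow, norm_norm]
      have : ‖g n‖ ^ 2 ≤ 1 := by
        have := pow_le_pow_left₀ (norm_nonneg _) (hg1 n) 2
        rwa [one_pow] at this
      nlinarith [sq_nonneg ‖x n‖]
    refine sqrt_bound _ _ (Finset.sum_nonneg fun n _ => sq_nonneg _) ?_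
    calc ∑ n ∈ A, ‖x n‖ ^ 2 = Φ (fsum (fun n => ‖x n‖ • g n) A) := h1.symm
      _ ≤ ‖Φ (fsum (fun n => ‖x n‖ • g n) A)‖ := le_abs_self _
      _ ≤ ‖Φ‖ * ‖fsum (fun n => ‖x n‖ • g n) A‖ := Φ.le_opNorm _
      _ ≤ _ := mul_le_mul_of_nonneg_left h2 (ContinuousLinearMap.opNorm_nonneg Φ)
  let X : lp G 2 := ⟨x, mem_two x _ hbound⟩
  have hX : ∀ n, X n = x n := fun n => rfl
  refine ⟨X, fun f => ?_⟩
  let g : ∀ n, StrongDual ℝ (G n) := fun n => f.comp (lp.singleContinuousLinearMap ℝ G 2 n)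
  have hg : ∀ n (u : G n), g n u = f (lp.single 2 n u) := fun n u => rfl
  have hsum : Summable (fun n => ‖g n‖ ^ 2) :=
    summable_of_sum_le (fun n => sq_nonneg _) (dual_sq f)
  -- pointwise convergence
  have hpt : ∀ y : lp G 2, Tendsto (fun A : Finset ℕ => fsum g A y) atTop (𝓝 (f y)) := by
    intro y
    have h1 := lp.hasSum_single (p := 2) (by norm_num) y
    have h2 := (f.continuous.tendsto y).comp h1
    refine h2.congr fun A => ?_
    rw [Function.comp_apply, map_sum, fsum_apply]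
    rfl
  -- norm convergence
  have hnorm : Tendsto (fun A : Finset ℕ => fsum g A) atTop (𝓝 f) := by
    rw [Metric.tendsto_nhds]
    intro ε hε
    have hc := summable_iff_vanishing_norm.mp hsum ((ε / 2) ^ 2) (by positivity)
    obtain ⟨S, hS⟩ := hc
    filter_upwards [eventually_ge_atTop S] with A hA
    rw [dist_eq_norm]
    refine lt_of_le_of_lt ?_ (show ε / 2 < ε by linarith)
    refine ContinuousLinearMap.opNorm_le_bound _ (by positivity) fun y => ?_
    have h1 : Tendsto (fun B : Finset ℕ => ‖fsum g A y - fsum g B y‖) atTop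
        (𝓝 ‖fsum g A y - f y‖) := ((hpt y).const_sub _).norm
    rw [sub_apply]
    refine le_of_tendsto h1 ?_
    filter_upwards [eventually_ge_atTop A] with B hB
    rw [norm_sub_rev, fsum_apply, fsum_apply, ← Finset.sum_sdiff hB, add_sub_cancel_right]
    refine (sum_comp_le g (B \ A) y).trans ?_
    refine mul_le_mul_of_nonneg_right ?_ (norm_nonneg _)
    have h2 := hS (B \ A) (Finset.disjoint_of_subset_right hA Finset.sdiff_disjoint)
    rw [Real.norm_of_nonneg (Finset.sum_nonneg fun n _ => sq_nonneg _)] at h2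
    calc Real.sqrt (∑ n ∈ B \ A, ‖g n‖ ^ 2) ≤ Real.sqrt ((ε / 2) ^ 2) :=
          Real.sqrt_le_sqrt h2.le
      _ = ε / 2 := Real.sqrt_sq (by positivity)
  have h1 : Tendsto (fun A : Finset ℕ => Φ (fsum g A)) atTop (𝓝 (Φ f)) :=
    (Φ.continuous.tendsto f).comp hnorm
  have h2 : Tendsto (fun A : Finset ℕ => Φ (fsum g A)) atTop (𝓝 (f X)) := by
    refine (hpt X).congr fun A => ?_
    rw [fsum_apply]
    unfold fsum
    rw [map_sum]
    refine Finset.sum_congr rfl fun n _ => ?_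
    rw [hx', hX]
  exact tendsto_nhds_unique h1 h2

end

end Crest.Agent.H4
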