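import Mathlib
import Crest.Prelude.Def_TreePotentials
import Crest.Agent.H4.AUC


/-! The four tree potential models. -/

set_option autoImplicit false

namespace Crest.Agent.H4

open Crest.AnalysisR Crest.AnalysisR.TreePotential Filter Topology

section exchange

/-- `V` is closed under taking tails and contains the root. -/
def TailClosed (V : Finset (List ℕ)) : Prop :=
  [] ∈ V ∧ ∀ (a : ℕ) (v : List ℕ), a :: v ∈ V → v ∈ V

/-- last vertex of `V` on the root path -/
def exitV (V : Finset (List ℕ)) : List ℕ → List ℕ
  | [] => []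
  | a :: v => if a :: v ∈ V then a :: v else exitV V v

lemma exitV_mem (V : Finset (List ℕ)) (u : List ℕ) (hu : u ∈ V) : exitV V u = u := by
  cases u with
  | nil => rfl
  | cons a v => simp [exitV, hu]

lemma exitV_not_mem (V : Finset (List ℕ)) (a : ℕ) (v : List ℕ) (hu : a :: v ∉ V) :
    exitV V (a :: v) = exitV V v := by
  simp [exitV, hu]

/-- the truncation function; `p` is the potential at the exit, `pos` the sign of the half -/
noncomputable def trunc (p : ℝ) (pos : Bool) (q : ℝ) : ℝ :=
  if 0 ≤ p then (if pos then min q 0 else -(max q 0))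
  else (if pos then max q 0 else -(min q 0))

lemma trunc_zero (p : ℝ) (pos : Bool) : trunc p pos 0 = 0 := by
  unfold trunc; split_ifs <;> simp

lemma trunc_lip (p : ℝ) (pos : Bool) (q q' : ℝ) :
    |trunc p pos q - trunc p pos q'| ≤ |q - q'| := by
  unfold trunc
  split_ifs
  · simpa using abs_min_sub_min_le_max q 0 q' 0
  · rw [neg_sub_neg, abs_sub_comm]
    simpa using abs_max_sub_max_le_max q 0 q' 0
  · simpa using abs_max_sub_max_le_max q 0 q' 0
  · rw [neg_sub_neg, abs_sub_comm]
    simpa using abs_min_sub_min_le_max q 0 q' 0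

lemma trunc_diff (p q : ℝ) : trunc p true q - trunc p false q = q := by
  unfold trunc
  rcases le_total 0 p with hp | hp
  · simp only [hp, if_true, Bool.false_eq_true, if_false]
    rcases le_total q 0 with hq | hq
    · rw [min_eq_left hq, max_eq_right hq]; ring
    · rw [min_eq_right hq, max_eq_left hq]; ring
  · by_cases hp' : 0 ≤ p
    · simp only [hp', if_true, Bool.false_eq_true, if_false]
      rcases le_total q 0 with hq | hq
      · rw [min_eq_left hq, max_eq_right hq]; ring
      · rw [min_eq_right hq, max_eq_left hq]; ring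
    · simp only [hp', if_true, Bool.false_eq_true, if_false]
      rcases le_total q 0 with hq | hq
      · rw [min_eq_left hq, max_eq_right hq]; ring
      · rw [min_eq_right hq, max_eq_left hq]; ring

/-- potential of the exchanged test -/
noncomputable def exPot (V : Finset (List ℕ)) (α β : ℝ) (f g : List ℕ → ℝ) (pos : Bool)
    (u : List ℕ) : ℝ :=
  α * pathPotential f (exitV V u) + β * trunc (pathPotential f (exitV V u)) pos
    (pathPotential g u - pathPotential g (exitV V u))

/-- the exchanged coefficient family -/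
noncomputable def exTest (V : Finset (List ℕ)) (α β : ℝ) (f g : List ℕ → ℝ) (pos : Bool) :
    List ℕ → ℝ
  | [] => exPot V α β f g pos []
  | a :: v => exPot V α β f g pos (a :: v) - exPot V α β f g pos v

variable (V : Finset (List ℕ)) (α β : ℝ) (f g : List ℕ → ℝ) (pos : Bool)

lemma pot_exTest (u : List ℕ) :
    pathPotential (exTest V α β f g pos) u = exPot V α β f g pos u := by
  induction u with
  | nil => rfl
  | cons a v ih =>
    rw [pathPotential, ih, exTest]; ring

lemma exPot_mem (u : List ℕ) (hu : u ∈ V) :
    exPot V α β f g pos u = α * pathPotential f u := by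
  rw [exPot, exitV_mem V u hu, sub_self, trunc_zero]; ring

lemma exTest_mem (hV : TailClosed V) (u : List ℕ) (hu : u ∈ V) :
    exTest V α β f g pos u = α * f u := by
  cases u with
  | nil => rw [exTest, exPot_mem V α β f g pos [] hu, pathPotential]
  | cons a v =>
    rw [exTest, exPot_mem V α β f g pos _ hu, exPot_mem V α β f g pos v (hV.2 a v hu),
      pathPotential]
    ring

lemma exTest_not_mem (a : ℕ) (v : List ℕ) (hu : a :: v ∉ V) :
    exTest V α β f g pos (a :: v) = β *
      (trunc (pathPotential f (exitV V v)) pos (pathPotential g (a :: v)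
        - pathPotential g (exitV V v))
      - trunc (pathPotential f (exitV V v)) pos (pathPotential g v
        - pathPotential g (exitV V v))) := by
  rw [exTest, exPot, exPot, exitV_not_mem V a v hu]; ring

lemma exTest_sq (hV : TailClosed V) (u : List ℕ) :
    exTest V α β f g pos u ^ 2 ≤ α ^ 2 * f u ^ 2 + β ^ 2 * g u ^ 2 := by
  by_cases hu : u ∈ V
  · rw [exTest_mem V α β f g pos hV u hu, mul_pow]
    nlinarith [mul_nonneg (sq_nonneg β) (sq_nonneg (g u))]
  · cases u with
    | nil => exact absurd hV.1 hu
    | cons a v =>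
      rw [exTest_not_mem V α β f g pos a v hu, mul_pow]
      have h := trunc_lip (pathPotential f (exitV V v)) pos
        (pathPotential g (a :: v) - pathPotential g (exitV V v))
        (pathPotential g v - pathPotential g (exitV V v))
      have h2 : pathPotential g (a :: v) - pathPotential g (exitV V v)
        - (pathPotential g v - pathPotential g (exitV V v)) = g (a :: v) := by
        rw [pathPotential]; ring
      rw [h2] at h
      have h3 := sq_le_sq' (by linarith [neg_abs_le (g (a :: v)), abs_le.mp h |>.1])
        (abs_le.mp h).2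
      rw [sq_abs] at h3
      nlinarith [mul_nonneg (sq_nonneg α) (sq_nonneg (f (a :: v))),
        mul_le_mul_of_nonneg_left h3 (sq_nonneg β)]

lemma exPot_bound (hα0 : 0 ≤ α) (hα1 : α ≤ 1) (hβ0 : 0 ≤ β) (hβ : β ≤ 1 / 2)
    (hf : ∀ s, |pathPotential f s| ≤ 1) (hg : ∀ s, |pathPotential g s| ≤ 1) (u : List ℕ) :
    |exPot V α β f g pos u| ≤ 1 := by
  unfold exPot
  set P := pathPotential f (exitV V u) with hP
  set Q := pathPotential g u - pathPotential g (exitV V u) with hQ
  have h1 := abs_le.mp (hf (exitV V u))
  have h2 := abs_le.mp (hg u)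
  have h3 := abs_le.mp (hg (exitV V u))
  rw [← hP] at h1
  have hQ1 : Q ≤ 2 := by rw [hQ]; linarith
  have hQ2 : -2 ≤ Q := by rw [hQ]; linarith
  rw [abs_le]
  unfold trunc
  split_ifs with hp hb hb
  · have h4 : min Q 0 ≤ 0 := min_le_right _ _
    have h5 : -2 ≤ min Q 0 := le_min hQ2 (by norm_num)
    constructor <;> nlinarith
  · have h4 : 0 ≤ max Q 0 := le_max_right _ _
    have h5 : max Q 0 ≤ 2 := max_le hQ1 (by norm_num)
    constructor <;> nlinarith
  · have h4 : 0 ≤ max Q 0 := le_max_right _ _
    have h5 : max Q 0 ≤ 2 := max_le hQ1 (by norm_num)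
    push Not at hp
    constructor <;> nlinarith
  · have h4 : min Q 0 ≤ 0 := min_le_right _ _
    have h5 : -2 ≤ min Q 0 := le_min hQ2 (by norm_num)
    push Not at hp
    constructor <;> nlinarith

lemma exTest_isTest (m : PotentialModel) (hV : TailClosed V) (hα0 : 0 ≤ α) (hβ0 : 0 ≤ β)
    (hβ : β ≤ 1 / 2) (hαβ : α ^ 2 + β ^ 2 = 1) (hf : IsTest m f) (hg : IsTest m g) :
    IsTest m (exTest V α β f g pos) := by
  have hα1 : α ≤ 1 := by nlinarith
  refine ⟨fun s => ?_, ?_⟩
  · rw [pot_exTest]; exact exPot_bound V α β f g pos hα0 hα1 hβ0 hβ hf.1 hg.1 s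
  · have hsq := exTest_sq V α β f g pos hV
    have gen : ∀ {κ : Type} (A : Finset κ) (e : κ → List ℕ),
        ∑ n ∈ A, f (e n) ^ 2 ≤ 1 → ∑ n ∈ A, g (e n) ^ 2 ≤ 1 →
        ∑ n ∈ A, exTest V α β f g pos (e n) ^ 2 ≤ 1 := by
      intro κ A e h1 h2
      calc ∑ n ∈ A, exTest V α β f g pos (e n) ^ 2
          ≤ ∑ n ∈ A, (α ^ 2 * f (e n) ^ 2 + β ^ 2 * g (e n) ^ 2) :=
            Finset.sum_le_sum fun n _ => hsq (e n)
        _ = α ^ 2 * ∑ n ∈ A, f (e n) ^ 2 + β ^ 2 * ∑ n ∈ A, g (e n) ^ 2 := by
            rw [Finset.sum_add_distrib, Finset.mul_sum, Finset.mul_sum]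
        _ ≤ α ^ 2 * 1 + β ^ 2 * 1 := by
            gcongr
        _ = 1 := by rw [mul_one, mul_one, hαβ]
    cases m with
    | rootlessSibling =>
      refine ⟨?_, fun r A => gen A (fun n => n :: r) (hf.2.2 r A) (hg.2.2 r A)⟩
      rw [exTest_mem V α β f g pos hV [] hV.1, hf.2.1, mul_zero]
    | rootedSibling => exact fun r A => gen A (fun n => n :: r) (hf.2 r A) (hg.2 r A)
    | antichain =>
      refine ⟨?_, fun A hA => gen A id (hf.2.2 A hA) (hg.2.2 A hA)⟩
      refine (hf.2.1.union hg.2.1).subset fun u hu => ?_
      rw [Function.mem_support] at hu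
      by_contra hcon
      simp only [Set.mem_union, Function.mem_support, not_or, not_not] at hcon
      have := hsq u
      rw [hcon.1, hcon.2] at this
      have h0 : exTest V α β f g pos u ^ 2 ≤ 0 := by simpa using this
      exact hu (by nlinarith [sq_nonneg (exTest V α β f g pos u), pow_eq_zero_iff (n := 2) (two_ne_zero) |>.mp (le_antisymm h0 (sq_nonneg _))])
    | global => exact fun A => gen A id (hf.2 A) (hg.2 A)

lemma exTest_diff (u : List ℕ) (hV : TailClosed V) (hu : u ∉ V) :
    exTest V α β f g true u - exTest V α β f g false u = β * g u := by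
  cases u with
  | nil => exact absurd hV.1 hu
  | cons a v =>
    rw [exTest_not_mem V α β f g true a v hu, exTest_not_mem V α β f g false a v hu]
    have h1 := trunc_diff (pathPotential f (exitV V v))
      (pathPotential g (a :: v) - pathPotential g (exitV V v))
    have h2 := trunc_diff (pathPotential f (exitV V v))
      (pathPotential g v - pathPotential g (exitV V v))
    have h3 : g (a :: v) = (pathPotential g (a :: v) - pathPotential g (exitV V v))
      - (pathPotential g v - pathPotential g (exitV V v)) := by
      rw [pathPotential]; ring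
    linear_combination β * h1 - β * h2 - β * h3

end exchange

end Crest.Agent.H4
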