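import Mathlib
import Crest.Prelude.Def_TreePotentials
import Crest.Agent.H4.AUC
import Crest.Agent.H4.TreePot

/-! The Banach spaces of the tree potential models. -/

set_option autoImplicit false

namespace Crest.Agent.H4

open Crest.AnalysisR Crest.AnalysisR.TreePotential Filter Topology

variable (m : PotentialModel)

/-- the ambient space of bounded functions on tests -/
abbrev Amb (m : PotentialModel) := lp (fun _ : PotentialTest m => ℝ) ⊤

/-- evaluation at a test -/
noncomputable def ev (f : PotentialTest m) : Amb m →L[ℝ] ℝ :=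
  lp.evalCLM (𝕜 := ℝ) (fun _ : PotentialTest m => ℝ) ⊤ f

@[simp] lemma ev_apply (f : PotentialTest m) (x : Amb m) : ev m f x = x f := rfl

lemma ev_coord (f : PotentialTest m) (s : List ℕ) : ev m f (coordVector m s) = f.1 s := rfl

/-- a functional vanishing on coordinates vanishes on the model space -/
lemma vanish (L : Amb m →L[ℝ] ℝ) (h : ∀ s, L (coordVector m s) = 0) (x : Amb m)
    (hx : x ∈ modelSpace m) : L x = 0 := by
  have hle : modelSpace m ≤ LinearMap.ker (L : Amb m →ₗ[ℝ] ℝ) := by
    refine Submodule.topologicalClosure_minimal _ ?_ ?_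
    · rw [Submodule.span_le]
      rintro _ ⟨s, rfl⟩
      simpa using h s
    · exact isClosed_eq L.continuous continuous_const
  simpa using hle hx

lemma vanish_span (L : Amb m →L[ℝ] ℝ) (V : Set (List ℕ)) (h : ∀ s ∈ V, L (coordVector m s) = 0)
    (x : Amb m) (hx : x ∈ Submodule.span ℝ (coordVector m '' V)) : L x = 0 := by
  have hle : Submodule.span ℝ (coordVector m '' V) ≤ LinearMap.ker (L : Amb m →ₗ[ℝ] ℝ) := by
    rw [Submodule.span_le]
    rintro _ ⟨s, hs, rfl⟩
    simpa using h s hs
  simpa using hle hx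

lemma pot_neg (f : List ℕ → ℝ) (s : List ℕ) :
    pathPotential (fun u => - f u) s = - pathPotential f s := by
  induction s with
  | nil => rfl
  | cons a v ih => rw [pathPotential, ih, pathPotential]; ring

lemma isTest_neg {f : List ℕ → ℝ} (hf : IsTest m f) : IsTest m (fun u => - f u) := by
  refine ⟨fun s => ?_, ?_⟩
  · rw [pot_neg, abs_neg]; exact hf.1 s
  · cases m with
    | rootlessSibling =>
      exact ⟨by show - f [] = 0; rw [hf.2.1, neg_zero], fun r A => by simpa using hf.2.2 r A⟩
    | rootedSibling => exact fun r A => by simpa using hf.2 r A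
    | antichain =>
      refine ⟨?_, fun A hA => by simpa using hf.2.2 A hA⟩
      convert hf.2.1 using 1
      ext u; simp
    | global => exact fun A => by simpa using hf.2 A

def negTest (f : PotentialTest m) : PotentialTest m := ⟨fun u => - f.1 u, isTest_neg m f.2⟩

lemma ev_neg (f : PotentialTest m) (x : Amb m) (hx : x ∈ modelSpace m) :
    x (negTest m f) = - x f := by
  have := vanish m (ev m (negTest m f) + ev m f) (fun s => by
    rw [add_apply, ev_coord, ev_coord]
    simp [negTest]) x hx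
  rw [add_apply, ev_apply, ev_apply] at this
  linarith

open Classical in
/-- coefficient family concentrated at one vertex -/
noncomputable def dfun (s : List ℕ) : List ℕ → ℝ :=
  fun u => if u = s ∧ ¬ (m = .rootlessSibling ∧ s = []) then 1 else 0

lemma dfun_ne (s u : List ℕ) (h : u ≠ s) : dfun m s u = 0 := by
  unfold dfun; simp [h]

lemma dfun_bad (s u : List ℕ) (h : m = .rootlessSibling ∧ s = []) : dfun m s u = 0 := by
  unfold dfun; simp [h]

lemma dfun_self (s : List ℕ) (h : ¬ (m = .rootlessSibling ∧ s = [])) : dfun m s s = 1 := by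
  unfold dfun; simp [h]

open Classical in
lemma pot_dfun (s u : List ℕ) : pathPotential (dfun m s) u
    = if s <:+ u ∧ ¬ (m = .rootlessSibling ∧ s = []) then 1 else 0 := by
  by_cases hb : m = .rootlessSibling ∧ s = []
  · rw [if_neg (fun h => h.2 hb)]
    induction u with
    | nil => rw [pathPotential]; exact dfun_bad _ _ _ hb
    | cons a v ih =>
      rw [pathPotential, ih, zero_add]; exact dfun_bad _ _ _ hb
  · simp only [hb, not_false_eq_true, and_true]
    induction u with
    | nil =>
      rw [pathPotential]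
      by_cases hs : s = []
      · subst hs; simpa using dfun_self m [] hb
      · rw [dfun_ne m s [] (Ne.symm hs)]; simp [hs]
    | cons a v ih =>
      rw [pathPotential, ih]
      by_cases h1 : s = a :: v
      · subst h1
        have h2 : ¬ (a :: v) <:+ v := fun h => by
          have := h.length_le; simp at this
        rw [dfun_self m _ hb]; simp [h2]
      · rw [dfun_ne m s _ (Ne.symm h1)]
        simp [List.suffix_cons_iff, h1]

lemma sum_dfun_le {κ : Type} (A : Finset κ) (e : κ → List ℕ) (he : Function.Injective e)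
    (s : List ℕ) : ∑ n ∈ A, dfun m s (e n) ^ 2 ≤ 1 := by
  classical
  have h1 : ∑ n ∈ A, dfun m s (e n) ^ 2 ≤ ∑ n ∈ A, (if e n = s then (1:ℝ) else 0) := by
    refine Finset.sum_le_sum fun n _ => ?_
    unfold dfun
    by_cases h : e n = s
    · simp only [h, true_and, if_true]; split_ifs <;> norm_num
    · simp [h]
  refine h1.trans ?_
  rw [Finset.sum_ite, Finset.sum_const_zero, add_zero, Finset.sum_const, nsmul_eq_mul, mul_one]
  have : (A.filter (fun n => e n = s)).card ≤ 1 := by
    rw [Finset.card_le_one]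
    intro a ha b hb
    rw [Finset.mem_filter] at ha hb
    exact he (ha.2.trans hb.2.symm)
  exact_mod_cast this

lemma isTest_dfun (s : List ℕ) : IsTest m (dfun m s) := by
  refine ⟨fun u => ?_, ?_⟩
  · rw [pot_dfun]; split_ifs <;> norm_num
  · have hinj : ∀ r : List ℕ, Function.Injective (fun n : ℕ => n :: r) := fun r a b h => by
      simpa using h
    cases m with
    | rootlessSibling =>
      refine ⟨?_, fun r A => sum_dfun_le _ A _ (hinj r) s⟩
      by_cases hs : s = []
      · exact dfun_bad _ _ _ ⟨rfl, hs⟩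
      · exact dfun_ne _ _ _ (Ne.symm hs)
    | rootedSibling => exact fun r A => sum_dfun_le _ A _ (hinj r) s
    | antichain =>
      refine ⟨(Set.finite_singleton s).subset fun u hu => ?_,
        fun A _ => sum_dfun_le _ A id Function.injective_id s⟩
      by_contra hcon
      exact hu (dfun_ne _ _ _ (by simpa using hcon))
    | global => exact fun A => sum_dfun_le _ A id Function.injective_id s

noncomputable def dTest (s : List ℕ) : PotentialTest m := ⟨dfun m s, isTest_dfun m s⟩

lemma coord_bad (h : m = .rootlessSibling) : coordVector m [] = 0 := by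
  subst h
  ext f
  exact f.2.2.1

instance : Nonempty (PotentialTest m) := ⟨dTest m []⟩

/-- Nearly norming tests. -/
lemma exists_test (x : Amb m) (hx : x ∈ modelSpace m) (η : ℝ) (hη : 0 < η) :
    ∃ f : PotentialTest m, ‖x‖ - η < x f := by
  have hlub := lp.isLUB_norm x
  obtain ⟨_, ⟨f, rfl⟩, hf⟩ := (lt_isLUB_iff hlub).mp (show ‖x‖ - η < ‖x‖ by linarith)
  replace hf : ‖x‖ - η < ‖x f‖ := hf
  rcases le_total 0 (x f) with h | h
  · exact ⟨f, by rwa [Real.norm_of_nonneg h] at hf⟩
  · refine ⟨negTest m f, ?_⟩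
    rw [ev_neg m f x hx]
    rwa [Real.norm_of_nonpos h] at hf

lemma eval_le (x : Amb m) (f : PotentialTest m) : x f ≤ ‖x‖ :=
  (le_abs_self _).trans (lp.norm_apply_le_norm ENNReal.top_ne_zero x f)

/-- Exchange inequality. -/
lemma avg_lower (V : Finset (List ℕ)) (hV : TailClosed V) (x y : Amb m)
    (hx : x ∈ Submodule.span ℝ (coordVector m '' (V : Set (List ℕ))))
    (hy : y ∈ modelSpace m) (hyV : ∀ s ∈ V, y (dTest m s) = 0) (α β t : ℝ) (hα : 0 ≤ α)
    (hβ0 : 0 ≤ β) (hβ : β ≤ 1 / 2) (hαβ : α ^ 2 + β ^ 2 = 1) (ht : 0 ≤ t) :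
    2 * α * ‖x‖ + t * β * ‖y‖ ≤ ‖x + t • y‖ + ‖x - t • y‖ := by
  have hxm : x ∈ modelSpace m := by
    refine Submodule.le_topologicalClosure _ ?_
    exact Submodule.span_mono (Set.image_subset_range _ _) hx
  refine le_of_forall_pos_lt_add fun ε hε => ?_
  obtain ⟨f, hf⟩ := exists_test m x hxm (ε / (4 * (α + 1))) (by positivity)
  obtain ⟨g, hg⟩ := exists_test m y hy (ε / (4 * (t * β + 1))) (by positivity)
  let hp : Bool → PotentialTest m := fun b =>
    ⟨exTest V α β f.1 g.1 b, exTest_isTest V α β f.1 g.1 b m hV hα hβ0 hβ hαβ f.2 g.2⟩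
  -- evaluation of x
  have hxe : ∀ b, x (hp b) = α * x f := by
    intro b
    have := vanish_span m (ev m (hp b) - α • ev m f) V (fun s hs => by
      rw [sub_apply, smul_apply, ev_coord, ev_coord, smul_eq_mul]
      show exTest V α β f.1 g.1 b s - α * f.1 s = 0
      rw [exTest_mem V α β f.1 g.1 b hV s hs]; ring) x hx
    rw [sub_apply, smul_apply, ev_apply, ev_apply, smul_eq_mul] at this
    linarith
  -- evaluation of y
  have hye : y (hp true) - y (hp false) = β * y g := by
    have := vanish m (ev m (hp true) - ev m (hp false) - β • ev m g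
      + ∑ s ∈ V, (β * g.1 s) • ev m (dTest m s)) (fun u => by
      rw [add_apply, sub_apply, sub_apply, smul_apply, ev_coord, ev_coord, ev_coord, smul_eq_mul,
        sum_apply]
      simp only [smul_apply, ev_coord, smul_eq_mul]
      show exTest V α β f.1 g.1 true u - exTest V α β f.1 g.1 false u - β * g.1 u
        + ∑ s ∈ V, β * g.1 s * dfun m s u = 0
      by_cases hu : u ∈ V
      · rw [exTest_mem V α β f.1 g.1 true hV u hu, exTest_mem V α β f.1 g.1 false hV u hu,
          Finset.sum_eq_single_of_mem u hu (fun s _ hs => by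
            rw [dfun_ne m s u (Ne.symm hs), mul_zero])]
        by_cases hb : m = .rootlessSibling ∧ u = []
        · obtain ⟨rfl, rfl⟩ := hb
          have : g.1 [] = 0 := g.2.2.1
          rw [this]; ring
        · rw [dfun_self m u hb]; ring
      · rw [exTest_diff V α β f.1 g.1 u hV hu, Finset.sum_eq_zero (fun s hs => by
          rw [dfun_ne m s u (fun h => hu (h ▸ hs)), mul_zero])]
        ring) y hy
    rw [add_apply, sub_apply, sub_apply, smul_apply, ev_apply, ev_apply, ev_apply, smul_eq_mul,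
      sum_apply] at this
    simp only [smul_apply, ev_apply, smul_eq_mul] at this
    rw [Finset.sum_eq_zero (fun s hs => by rw [hyV s hs, mul_zero])] at this
    linarith
  have h1 := eval_le m (x + t • y) (hp true)
  have h2 := eval_le m (x - t • y) (hp false)
  have e1 : (x + t • y) (hp true) = x (hp true) + t * y (hp true) := rfl
  have e2 : (x - t • y) (hp false) = x (hp false) - t * y (hp false) := rfl
  rw [e1, hxe] at h1
  rw [e2, hxe] at h2
  have h3 : α * (ε / (4 * (α + 1))) ≤ ε / 4 := by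
    rw [mul_div_assoc', div_le_div_iff₀ (by positivity) (by norm_num)]
    nlinarith
  have h4 : t * β * (ε / (4 * (t * β + 1))) ≤ ε / 4 := by
    have : 0 ≤ t * β := mul_nonneg ht hβ0
    rw [mul_div_assoc', div_le_div_iff₀ (by positivity) (by norm_num)]
    nlinarith
  have h5 : α * (‖x‖ - ε / (4 * (α + 1))) ≤ α * x f := mul_le_mul_of_nonneg_left hf.le hα
  have h6 : t * β * (‖y‖ - ε / (4 * (t * β + 1))) ≤ t * β * y g :=
    mul_le_mul_of_nonneg_left hg.le (mul_nonneg ht hβ0)
  have h7 : t * (y (hp true) - y (hp false)) = t * (β * y g) := by rw [hye]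
  linarith

/-- The averaged lower estimate for all scales. -/
lemma avg_lower' (V : Finset (List ℕ)) (hV : TailClosed V) (x y : Amb m)
    (hx : x ∈ Submodule.span ℝ (coordVector m '' (V : Set (List ℕ))))
    (hy : y ∈ modelSpace m) (hyV : ∀ s ∈ V, y (dTest m s) = 0) (t : ℝ) (ht : 0 ≤ t) :
    2 * Real.sqrt (‖x‖ ^ 2 + t ^ 2 * ‖y‖ ^ 2 / 4) ≤ ‖x + t • y‖ + ‖x - t • y‖ := by
  set a := ‖x‖ with ha
  set b := t * ‖y‖ with hb
  have ha0 : 0 ≤ a := norm_nonneg _
  have hb0 : 0 ≤ b := mul_nonneg ht (norm_nonneg _)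
  have hab : a ^ 2 + t ^ 2 * ‖y‖ ^ 2 / 4 = a ^ 2 + b ^ 2 / 4 := by rw [hb]; ring
  rw [hab]
  set R := Real.sqrt (a ^ 2 + b ^ 2 / 4) with hR
  have hR2 : R ^ 2 = a ^ 2 + b ^ 2 / 4 := Real.sq_sqrt (by positivity)
  have hR0 : 0 ≤ R := Real.sqrt_nonneg _
  rcases le_or_gt b R with hbR | hbR
  · rcases hR0.eq_or_lt with hR00 | hRpos
    · rw [← hR00, mul_zero]; positivity
    have := avg_lower m V hV x y hx hy hyV (a / R) (b / 2 / R) t (by positivity) (by positivity)
      (by rw [div_le_iff₀ hRpos]; linarith) (by field_simp; nlinarith) ht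
    have e : 2 * (a / R) * ‖x‖ + t * (b / 2 / R) * ‖y‖ = 2 * R := by
      have : 2 * (a / R) * ‖x‖ + t * (b / 2 / R) * ‖y‖ = (2 * a ^ 2 + b ^ 2 / 2) / R := by
        rw [← ha]
        have : t * (b / 2 / R) * ‖y‖ = b * b / 2 / R := by rw [hb]; ring
        rw [this]; ring
      rw [this, div_eq_iff hRpos.ne']
      nlinarith
    linarith
  · have h1 : ‖(2:ℝ) • (t • y)‖ ≤ ‖x + t • y‖ + ‖x - t • y‖ := by
      have : (2:ℝ) • (t • y) = (x + t • y) - (x - t • y) := by rw [two_smul]; abel
      rw [this]; exact norm_sub_le _ _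
    rw [norm_smul, norm_smul, Real.norm_of_nonneg (by norm_num : (0:ℝ) ≤ 2),
      Real.norm_of_nonneg ht] at h1
    linarith

/-- tail closure of a finite set of vertices -/
lemma exists_tailClosed (S : Finset (List ℕ)) : ∃ V : Finset (List ℕ), S ⊆ V ∧ TailClosed V := by
  classical
  refine ⟨insert [] (S.biUnion fun s => s.tails.toFinset), ?_, ?_, ?_⟩
  · intro s hs
    refine Finset.mem_insert_of_mem (Finset.mem_biUnion.mpr ⟨s, hs, ?_⟩)
    rw [List.mem_toFinset, List.mem_tails]
  · exact Finset.mem_insert_self _ _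
  · intro a v hav
    rw [Finset.mem_insert, Finset.mem_biUnion] at hav
    rcases hav with h | ⟨s, hs, h⟩
    · exact absurd h (by simp)
    · refine Finset.mem_insert_of_mem (Finset.mem_biUnion.mpr ⟨s, hs, ?_⟩)
      rw [List.mem_toFinset, List.mem_tails] at h ⊢
      exact (List.suffix_cons a v).trans h

lemma approx_span (U : Set (List ℕ)) (x : Amb m)
    (hx : x ∈ (Submodule.span ℝ (coordVector m '' U)).topologicalClosure) (ε : ℝ) (hε : 0 < ε) :
    ∃ V : Finset (List ℕ), TailClosed V ∧
      ∃ x' ∈ Submodule.span ℝ (coordVector m '' (V : Set (List ℕ))),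
        x' ∈ Submodule.span ℝ (coordVector m '' U) ∧ ‖x - x'‖ < ε := by
  classical
  rw [← SetLike.mem_coe, Submodule.topologicalClosure_coe] at hx
  obtain ⟨x', hx', hd⟩ := Metric.mem_closure_iff.mp hx ε hε
  rw [dist_eq_norm] at hd
  obtain ⟨T, hT, hxT⟩ := Submodule.mem_span_finite_of_mem_span hx'
  choose e he using fun z : T => hT z.2
  obtain ⟨V, hSV, hV⟩ := exists_tailClosed (T.attach.image e)
  refine ⟨V, hV, x', ?_, hx', hd⟩
  refine Submodule.span_mono ?_ hxT
  intro z hz
  refine ⟨e ⟨z, hz⟩, hSV (Finset.mem_image_of_mem _ (Finset.mem_attach _ _)), (he ⟨z, hz⟩).2⟩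

/-- coordinates as elements of the model space -/
noncomputable def cv (s : List ℕ) : modelSpace m :=
  ⟨coordVector m s, Submodule.le_topologicalClosure _ (Submodule.subset_span ⟨s, rfl⟩)⟩

lemma modelSpace_eq : modelSpace m
    = (Submodule.span ℝ (coordVector m '' Set.univ)).topologicalClosure := by
  rw [Set.image_univ]; rfl

noncomputable def evE (f : PotentialTest m) : modelSpace m →L[ℝ] ℝ :=
  (ev m f).comp (modelSpace m).subtypeL

lemma model_midpoint (t : ℝ) (ht : 0 < t) :
    (modelBanach m).MidpointModulusGE (modelBanach m).norm t (Real.sqrt (1 + t ^ 2 / 4) - 1) := by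
  intro x hx η hη
  change modelSpace m at x
  replace hx : ‖(x : Amb m)‖ = 1 := hx
  have hxm : (x : Amb m) ∈ (Submodule.span ℝ (coordVector m '' Set.univ)).topologicalClosure := by
    rw [← modelSpace_eq]; exact x.2
  obtain ⟨V, hV, x', hx'V, -, hxx'⟩ := approx_span m Set.univ x hxm (η / 4) (by positivity)
  have hx'1 : 1 - η / 4 ≤ ‖x'‖ := by
    have h1 : ‖(x : Amb m)‖ ≤ ‖(x : Amb m) - x'‖ + ‖x'‖ := by
      calc ‖(x : Amb m)‖ = ‖((x : Amb m) - x') + x'‖ := by congr 1; abel
        _ ≤ _ := norm_add_le _ _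
    have h2 : ‖(x : Amb m)‖ = 1 := hx
    linarith
  let Φ : modelSpace m →L[ℝ] (V → ℝ) := ContinuousLinearMap.pi fun s => evE m (dTest m s)
  refine ⟨{y | Φ y = 0}, cof_ker Φ, ?_⟩
  intro y hyF hy1
  change modelSpace m at y
  replace hy1 : ‖(y : Amb m)‖ = 1 := hy1
  replace hyF : Φ y = 0 := hyF
  have hyV : ∀ s ∈ V, (y : Amb m) (dTest m s) = 0 := by
    intro s hs
    have := congrFun hyF ⟨s, hs⟩
    exact this
  have h := avg_lower' m V hV x' y hx'V y.2 hyV t ht.le
  rw [hy1] at h
  show Real.sqrt (1 + t ^ 2 / 4) - 1 - η ≤ (‖(x : Amb m) + t • (y : Amb m)‖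
    + ‖(x : Amb m) - t • (y : Amb m)‖) / 2 - 1
  have h1 : ‖x' + t • (y : Amb m)‖ ≤ ‖(x : Amb m) + t • (y : Amb m)‖ + η / 4 := by
    have : x' + t • (y : Amb m) = ((x : Amb m) + t • (y : Amb m)) - ((x : Amb m) - x') := by abel
    rw [this]
    exact (norm_sub_le _ _).trans (by linarith)
  have h2 : ‖x' - t • (y : Amb m)‖ ≤ ‖(x : Amb m) - t • (y : Amb m)‖ + η / 4 := by
    have : x' - t • (y : Amb m) = ((x : Amb m) - t • (y : Amb m)) - ((x : Amb m) - x') := by abel
    rw [this]
    exact (norm_sub_le _ _).trans (by linarith)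
  have h3 : Real.sqrt (1 + t ^ 2 / 4) - η / 2 ≤ Real.sqrt (‖x'‖ ^ 2 + t ^ 2 * 1 ^ 2 / 4) := by
    rcases le_or_gt (Real.sqrt (1 + t ^ 2 / 4) - η / 2) 0 with h0 | h0
    · exact h0.trans (Real.sqrt_nonneg _)
    · apply Real.le_sqrt_of_sq_le
      set R := Real.sqrt (1 + t ^ 2 / 4) with hR
      have hR2 : R ^ 2 = 1 + t ^ 2 / 4 := Real.sq_sqrt (by positivity)
      have hR1 : 1 ≤ R := by
        rw [hR]; apply Real.le_sqrt_of_sq_le; nlinarith [sq_nonneg t]
      rcases le_or_gt (η / 4) 1 with hη1 | hη1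
      · have : (1 - η / 4) ^ 2 ≤ ‖x'‖ ^ 2 := pow_le_pow_left₀ (by linarith) hx'1 2
        nlinarith
      · nlinarith [norm_nonneg x']
  linarith

/-- children square sums are at most one in every model -/
lemma children_sq (f : PotentialTest m) (v : List ℕ) (A : Finset ℕ) :
    ∑ n ∈ A, f.1 (n :: v) ^ 2 ≤ 1 := by
  classical
  obtain ⟨f, hf1, hf2⟩ := f
  have hinj : Function.Injective (fun n : ℕ => n :: v) := fun a b h => by simpa using h
  cases m with
  | rootlessSibling => exact hf2.2 v A
  | rootedSibling => exact hf2 v A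
  | antichain =>
    have := hf2.2 (A.map ⟨_, hinj⟩) (by
      intro u hu w hw huw hsuf
      rw [Finset.mem_map] at hu hw
      obtain ⟨a, -, rfl⟩ := hu
      obtain ⟨b, -, rfl⟩ := hw
      simp only [Function.Embedding.coeFn_mk] at huw hsuf
      exact huw (hsuf.eq_of_length (by simp)))
    rwa [Finset.sum_map] at this
  | global =>
    have := hf2 (A.map ⟨_, hinj⟩)
    rwa [Finset.sum_map] at this

lemma child_l2 (v : List ℕ) (A : Finset ℕ) (a : ℕ → ℝ) :
    ‖∑ n ∈ A, a n • cv m (n :: v)‖ ≤ 1 * Real.sqrt (∑ n ∈ A, a n ^ 2) := by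
  rw [one_mul]
  have h0 : (0:ℝ) ≤ Real.sqrt (∑ n ∈ A, a n ^ 2) := Real.sqrt_nonneg _
  have hco : ((∑ n ∈ A, a n • cv m (n :: v) : modelSpace m) : Amb m)
      = ∑ n ∈ A, a n • coordVector m (n :: v) := by
    rw [Submodule.coe_sum]; rfl
  show ‖((∑ n ∈ A, a n • cv m (n :: v) : modelSpace m) : Amb m)‖ ≤ _
  rw [hco]
  refine lp.norm_le_of_forall_le h0 fun f => ?_
  have e : (∑ n ∈ A, a n • coordVector m (n :: v) : Amb m) f = ∑ n ∈ A, a n * f.1 (n :: v) := by
    rw [← ev_apply, map_sum]
    exact Finset.sum_congr rfl fun n _ => by rw [map_smul, ev_coord, smul_eq_mul]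
  rw [e, Real.norm_eq_abs]
  apply Real.abs_le_sqrt
  calc (∑ n ∈ A, a n * f.1 (n :: v)) ^ 2
      ≤ (∑ n ∈ A, a n ^ 2) * ∑ n ∈ A, f.1 (n :: v) ^ 2 := Finset.sum_mul_sq_le_sq_mul_sq _ _ _
    _ ≤ (∑ n ∈ A, a n ^ 2) * 1 := mul_le_mul_of_nonneg_left (children_sq m f v A)
        (Finset.sum_nonneg fun n _ => sq_nonneg _)
    _ = _ := mul_one _

lemma one_le_norm_cv (a : ℕ) (v : List ℕ) : 1 ≤ ‖cv m (a :: v)‖ := by
  have h := eval_le m (coordVector m (a :: v)) (dTest m (a :: v))
  have h1 : (coordVector m (a :: v)) (dTest m (a :: v)) = 1 :=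
    dfun_self m (a :: v) (by simp)
  rw [h1] at h
  exact h

/-- partial sums along a path -/
noncomputable def pv : List ℕ → modelSpace m
  | [] => cv m []
  | a :: v => pv v + cv m (a :: v)

lemma pv_eval (f : PotentialTest m) (v : List ℕ) :
    ev m f (pv m v : Amb m) = pathPotential f.1 v := by
  induction v with
  | nil => rfl
  | cons a v ih =>
    rw [pv, Submodule.coe_add, map_add, ih, pathPotential]; rfl

lemma norm_pv_le (v : List ℕ) : ‖pv m v‖ ≤ 1 := by
  show ‖(pv m v : Amb m)‖ ≤ 1
  refine lp.norm_le_of_forall_le zero_le_one fun f => ?_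
  rw [← ev_apply, pv_eval]
  exact f.2.1 v

lemma tree_pv (n : ℕ) (v : List ℕ) : Tree 1 1 n (pv m v) := by
  induction n generalizing v with
  | zero => exact norm_pv_le m v
  | succ n ih =>
    refine ⟨norm_pv_le m v, fun F hF ε hε => ?_⟩
    obtain ⟨k, y', hy', hlt⟩ := approx_of_weakNull (fun k => cv m (k :: v))
      (weakNull_of_l2 _ 1 (child_l2 m v)) F hF ε hε
    exact ⟨cv m (k :: v), ⟨y', hy', hlt⟩, one_le_norm_cv m k v, ih (k :: v)⟩

lemma norm_pv_start : 1 ≤ ‖pv m [0]‖ := by
  have h := eval_le m (pv m [0] : Amb m) (dTest m [0])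
  have h1 : (pv m [0] : Amb m) (dTest m [0]) = 1 := by
    rw [← ev_apply, pv_eval]
    show pathPotential (dfun m [0]) [0] = 1
    rw [pathPotential, pathPotential, dfun_ne m [0] [] (by simp), dfun_self m [0] (by simp)]
    norm_num
  rw [h1] at h
  exact h

instance : CompleteSpace (modelSpace m) :=
  (Submodule.isClosed_topologicalClosure _).completeSpace_coe

theorem model_noAUC (N : modelSpace m → ℝ) (hN : (modelBanach m).IsEquivNorm N) :
    ¬ (modelBanach m).IsAUC N :=
  noAUC (X := modelSpace m) 1 1 1 one_pos one_pos one_pos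
    (fun n => ⟨pv m [0], norm_pv_start m, tree_pv m n [0]⟩) N hN

theorem model_inf : ¬ FiniteDimensional ℝ (modelSpace m) :=
  not_finiteDimensional_of_weakNull (fun k => cv m (k :: []))
      (weakNull_of_l2 _ 1 (child_l2 m [])) 1 one_pos fun n => one_le_norm_cv m n []

theorem span_separable (U : Set (List ℕ)) : TopologicalSpace.SeparableSpace
    (Submodule.span ℝ (coordVector m '' U)).topologicalClosure := by
  have h : TopologicalSpace.IsSeparable
      ((Submodule.span ℝ (coordVector m '' U)).topologicalClosure : Set (Amb m)) := by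
    rw [Submodule.topologicalClosure_coe]
    exact (((Set.to_countable U).image _).isSeparable.span (R := ℝ)).closure
  exact h.separableSpace

theorem model_sep : TopologicalSpace.SeparableSpace (modelSpace m) := by
  rw [modelSpace_eq]; exact span_separable m _

end Crest.Agent.H4
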