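import Mathlib
import Crest.Agent.H4.TreeModel
import Crest.Agent.H4.EllTwo
import Crest.Agent.H4.Diamond

/-! The ℓ²-sum of the height-`n` pieces of the global tree potential model. -/

set_option autoImplicit false
set_option linter.unusedSectionVars false
set_option linter.unusedVariables false

namespace Crest.Agent.H4

open Crest.AnalysisR Crest.AnalysisR.TreePotential Filter Topology

/-- vertices of height at most `n` -/
def Un (n : ℕ) : Set (List ℕ) := {s | s.length ≤ n}

/-- the span of the coordinates of height at most `n` -/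
noncomputable def Gsp (n : ℕ) : Submodule ℝ (Amb .global) :=
  (Submodule.span ℝ (coordVector .global '' Un n)).topologicalClosure

instance (n : ℕ) : CompleteSpace (Gsp n) :=
  (Submodule.isClosed_topologicalClosure _).completeSpace_coe

lemma Gsp_le (n : ℕ) : Gsp n ≤ modelSpace .global := by
  rw [modelSpace_eq]
  exact Submodule.topologicalClosure_mono
    (Submodule.span_mono (Set.image_mono (Set.subset_univ _)))

lemma ap_Gsp (n : ℕ) : AP (Gsp n) := by
  intro x ε hε
  obtain ⟨V, hV, x', hx'V, -, hxx'⟩ := approx_span .global (Un n) (x : Amb .global) x.2 (ε / 8)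
    (by positivity)
  let Φ : Gsp n →L[ℝ] (V → ℝ) :=
    ContinuousLinearMap.pi fun s => (ev .global (dTest .global s)).comp (Gsp n).subtypeL
  refine ⟨{y | Φ y = 0}, cof_ker Φ, fun y hyF => ?_⟩
  replace hyF : Φ y = 0 := hyF
  have hyV : ∀ s ∈ V, (y : Amb .global) (dTest .global s) = 0 := by
    intro s hs
    exact congrFun hyF ⟨s, hs⟩
  have h := avg_lower' .global V hV x' y hx'V (Gsp_le n y.2) hyV 1 zero_le_one
  rw [one_smul, one_pow, one_mul] at h
  show 2 * Real.sqrt (‖(x : Amb .global)‖ ^ 2 + ‖(y : Amb .global)‖ ^ 2 / 4)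
    ≤ ‖(x : Amb .global) + (y : Amb .global)‖ + ‖(x : Amb .global) - (y : Amb .global)‖ + ε
  have h1 : ‖x' + (y : Amb .global)‖ ≤ ‖(x : Amb .global) + (y : Amb .global)‖ + ε / 8 := by
    have : x' + (y : Amb .global) = ((x : Amb .global) + (y : Amb .global))
      - ((x : Amb .global) - x') := by abel
    rw [this]; exact (norm_sub_le _ _).trans (by linarith)
  have h2 : ‖x' - (y : Amb .global)‖ ≤ ‖(x : Amb .global) - (y : Amb .global)‖ + ε / 8 := by
    have : x' - (y : Amb .global) = ((x : Amb .global) - (y : Amb .global))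
      - ((x : Amb .global) - x') := by abel
    rw [this]; exact (norm_sub_le _ _).trans (by linarith)
  have h3 := sq1 ‖(x : Amb .global)‖ ‖x'‖ ‖(y : Amb .global)‖
  have h4 : |‖(x : Amb .global)‖ - ‖x'‖| ≤ ε / 8 := (abs_norm_sub_norm_le _ _).trans hxx'.le
  linarith

/-! ### reflexivity of the pieces -/

abbrev Hn (n : ℕ) := lp (fun _ : Un n => ℝ) 2

lemma sum_res (n : ℕ) (f : PotentialTest .global) (A : Finset (Un n)) :
    ∑ s ∈ A, ‖f.1 s‖ ^ 2 ≤ 1 := by
  have := f.2.2 (A.map (Function.Embedding.subtype _))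
  rw [Finset.sum_map] at this
  simpa [Real.norm_eq_abs, sq_abs] using this

noncomputable def res (n : ℕ) (f : PotentialTest .global) : Hn n :=
  ⟨fun s => f.1 s, mem_two _ 1 (sum_res n f)⟩

lemma norm_res (n : ℕ) (f : PotentialTest .global) : ‖res n f‖ ≤ 1 := by
  have h := hasSum_sq (res n f)
  have h1 : ‖res n f‖ ^ 2 ≤ 1 := by
    refine le_of_tendsto h (Filter.Eventually.of_forall fun A => ?_)
    exact sum_res n f A
  exact (sq_le_one_iff₀ (norm_nonneg _)).mp h1

lemma Sn_mem (n : ℕ) (a : Hn n) :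
    Memℓp (fun f : PotentialTest .global => (inner ℝ (res n f) a : ℝ)) ⊤ := by
  refine memℓp_infty ⟨‖a‖, ?_⟩
  rintro _ ⟨f, rfl⟩
  show |inner ℝ (res n f) a| ≤ _
  refine (abs_real_inner_le_norm _ _).trans ?_
  have := mul_le_mul_of_nonneg_right (norm_res n f) (norm_nonneg a)
  linarith

noncomputable def Sn (n : ℕ) : Hn n →L[ℝ] Amb .global :=
  LinearMap.mkContinuous
    { toFun := fun a => ⟨fun f => inner ℝ (res n f) a, Sn_mem n a⟩
      map_add' := fun a b => by
        ext f
        show inner ℝ (res n f) (a + b) = inner ℝ (res n f) a + inner ℝ (res n f) b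
        exact inner_add_right _ _ _
      map_smul' := fun c a => by
        ext f
        show inner ℝ (res n f) (c • a) = c * inner ℝ (res n f) a
        exact real_inner_smul_right _ _ _ } 1
    (fun a => by
      rw [one_mul]
      refine lp.norm_le_of_forall_le (norm_nonneg _) fun f => ?_
      show |inner ℝ (res n f) a| ≤ _
      refine (abs_real_inner_le_norm _ _).trans ?_
      have := mul_le_mul_of_nonneg_right (norm_res n f) (norm_nonneg a)
      linarith)

lemma Sn_apply (n : ℕ) (a : Hn n) (f : PotentialTest .global) :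
    Sn n a f = inner ℝ (res n f) a := rfl

lemma Sn_single (n : ℕ) (s : Un n) : Sn n (lp.single 2 s 1) = coordVector .global s := by
  classical
  ext f
  rw [Sn_apply, lp.inner_single_right]
  show inner ℝ (f.1 s) (1:ℝ) = f.1 s
  simp

lemma Sn_range_le (n : ℕ) (a : Hn n) : Sn n a ∈ Gsp n := by
  classical
  have h1 := lp.hasSum_single (p := 2) (by norm_num) a
  have h2 := ((Sn n).continuous.tendsto a).comp h1
  refine (Submodule.isClosed_topologicalClosure _).mem_of_tendsto h2
    (Filter.Eventually.of_forall fun A => ?_)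
  rw [Function.comp_apply, map_sum]
  refine Submodule.sum_mem _ fun s _ => ?_
  have e : (lp.single 2 s (a s) : Hn n) = a s • lp.single 2 s 1 := by
    rw [← lp.single_smul, smul_eq_mul, mul_one]
  rw [e, map_smul, Sn_single]
  exact Submodule.smul_mem _ _ (Submodule.le_topologicalClosure _
    (Submodule.subset_span ⟨s, s.2, rfl⟩))

lemma pot_eq_sum (f : List ℕ → ℝ) (s : List ℕ) :
    pathPotential f s = ∑ u ∈ s.tails.toFinset, f u := by
  induction s with
  | nil => simp [pathPotential]
  | cons a v ih =>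
    have h : (a :: v).tails.toFinset = insert (a :: v) v.tails.toFinset := by
      rw [List.tails_cons, List.toFinset_cons]
    have h2 : a :: v ∉ v.tails.toFinset := by
      rw [List.mem_toFinset, List.mem_tails]
      intro h
      have := h.length_le
      simp at this
    rw [h, Finset.sum_insert h2, pathPotential, ih, add_comm]

/-- the normalized coefficient family of an array -/
noncomputable def nfun (n : ℕ) (c : ℝ) (a : Hn n) (s : List ℕ) : ℝ :=
  open Classical in if h : s ∈ Un n then c * a ⟨s, h⟩ else 0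

lemma nfun_sq (n : ℕ) (c : ℝ) (a : Hn n) (A : Finset (List ℕ)) :
    ∑ u ∈ A, nfun n c a u ^ 2 ≤ c ^ 2 * ‖a‖ ^ 2 := by
  classical
  have h1 : ∑ u ∈ A, nfun n c a u ^ 2 = ∑ u ∈ A.filter (· ∈ Un n), nfun n c a u ^ 2 := by
    rw [Finset.sum_filter]
    refine Finset.sum_congr rfl fun u _ => ?_
    by_cases h : u ∈ Un n
    · simp [h]
    · simp [h, nfun]
  rw [h1]
  have h2 : ∑ u ∈ A.filter (· ∈ Un n), nfun n c a u ^ 2
      = ∑ u ∈ A.subtype (· ∈ Un n), c ^ 2 * ‖a u‖ ^ 2 := by
    rw [← Finset.subtype_map, Finset.sum_map]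
    refine Finset.sum_congr rfl fun u _ => ?_
    have : nfun n c a u = c * a u := by
      unfold nfun
      rw [dif_pos u.2]
    rw [Function.Embedding.subtype_apply, this, mul_pow, Real.norm_eq_abs, sq_abs]
  rw [h2, ← Finset.mul_sum]
  exact mul_le_mul_of_nonneg_left (sum_sq_le a _) (sq_nonneg _)

lemma nfun_pot (n : ℕ) (c : ℝ) (a : Hn n) (s : List ℕ) :
    (pathPotential (nfun n c a) s) ^ 2 ≤ (n + 1) * (c ^ 2 * ‖a‖ ^ 2) := by
  classical
  induction s with
  | nil =>
    rw [pot_eq_sum]
    refine (sq_sum_le_card_mul_sum_sq).trans ?_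
    have h1 := nfun_sq n c a ([] : List ℕ).tails.toFinset
    have h2 : ((([] : List ℕ).tails.toFinset.card : ℕ) : ℝ) ≤ n + 1 := by
      simp
    exact mul_le_mul h2 h1 (Finset.sum_nonneg fun _ _ => sq_nonneg _) (by positivity)
  | cons b v ih =>
    by_cases h : (b :: v) ∈ Un n
    · rw [pot_eq_sum]
      refine (sq_sum_le_card_mul_sum_sq).trans ?_
      have h1 := nfun_sq n c a (b :: v).tails.toFinset
      have h2 : (((b :: v).tails.toFinset.card : ℕ) : ℝ) ≤ n + 1 := by
        have h3 := List.toFinset_card_le (b :: v).tails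
        rw [List.length_tails] at h3
        have h4 : (b :: v).length ≤ n := h
        have h5 : (b :: v).tails.toFinset.card ≤ n + 1 := by omega
        exact_mod_cast h5
      exact mul_le_mul h2 h1 (Finset.sum_nonneg fun _ _ => sq_nonneg _) (by positivity)
    · have : nfun n c a (b :: v) = 0 := by
        unfold nfun
        rw [dif_neg h]
      rw [pathPotential, this, add_zero]
      exact ih

lemma Sn_lower (n : ℕ) (a : Hn n) : ‖a‖ ≤ Real.sqrt (n + 1) * ‖Sn n a‖ := by
  by_cases ha : a = 0
  · rw [ha, norm_zero, map_zero, norm_zero, mul_zero]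
  have ha' : 0 < ‖a‖ := norm_pos_iff.mpr ha
  set r := Real.sqrt (n + 1) with hr
  have hr2 : r ^ 2 = n + 1 := Real.sq_sqrt (by positivity)
  have hr0 : 0 < r := Real.sqrt_pos.mpr (by positivity)
  set c : ℝ := 1 / (‖a‖ * r) with hc
  have hc2 : c ^ 2 * ‖a‖ ^ 2 = 1 / (n + 1) := by
    rw [hc, ← hr2]; field_simp
  have htest : IsTest .global (nfun n c a) := by
    refine ⟨fun s => ?_, fun A => ?_⟩
    · have h := nfun_pot n c a s
      rw [hc2, mul_one_div, div_self (by positivity)] at h
      exact (sq_le_one_iff_abs_le_one _).mp h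
    · have h := nfun_sq n c a A
      rw [hc2] at h
      refine h.trans ?_
      rw [div_le_one (by positivity)]
      have : (0:ℝ) ≤ n := Nat.cast_nonneg n
      linarith
  let f : PotentialTest .global := ⟨nfun n c a, htest⟩
  have h1 := eval_le .global (Sn n a) f
  have h2 : res n f = c • a := by
    ext s
    show nfun n c a s = c * a s
    unfold nfun
    rw [dif_pos s.2]
  rw [Sn_apply, h2, real_inner_smul_left, real_inner_self_eq_norm_sq] at h1
  have h3 : c * ‖a‖ ^ 2 = ‖a‖ / r := by rw [hc]; field_simp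
  rw [h3, div_le_iff₀ hr0] at h1
  linarith

lemma refl_Gsp (n : ℕ) : Refl (Gsp n) := by
  let S' : Hn n →L[ℝ] Gsp n := (Sn n).codRestrict (Gsp n) (Sn_range_le n)
  have hanti : AntilipschitzWith (Real.toNNReal (Real.sqrt (n + 1))) (Sn n) := by
    refine AddMonoidHomClass.antilipschitz_of_bound (Sn n) fun a => ?_
    rw [Real.coe_toNNReal _ (Real.sqrt_nonneg _)]
    exact Sn_lower n a
  have hcl : IsClosed (Set.range (Sn n)) := hanti.isClosed_range (Sn n).uniformContinuous
  have hker : LinearMap.ker (S' : Hn n →ₗ[ℝ] Gsp n) = ⊥ := by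
    rw [LinearMap.ker_eq_bot]
    intro a b hab
    apply hanti.injective
    exact congrArg Subtype.val hab
  have hrange : LinearMap.range (S' : Hn n →ₗ[ℝ] Gsp n) = ⊤ := by
    rw [LinearMap.range_eq_top]
    intro x
    have h1 : Gsp n ≤ LinearMap.range (Sn n : Hn n →ₗ[ℝ] Amb .global) := by
      refine Submodule.topologicalClosure_minimal _ ?_ ?_
      · rw [Submodule.span_le]
        rintro _ ⟨s, hs, rfl⟩
        exact ⟨lp.single 2 ⟨s, hs⟩ 1, Sn_single n ⟨s, hs⟩⟩
      · exact hcl
    obtain ⟨a, ha⟩ := h1 x.2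
    exact ⟨a, Subtype.ext ha⟩
  exact Refl.equiv (ContinuousLinearEquiv.ofBijective S' hker hrange).symm refl_hilbert

/-! ### trees in the pieces -/

lemma cg_mem (n : ℕ) (s : List ℕ) (h : s.length ≤ n) : coordVector .global s ∈ Gsp n :=
  Submodule.le_topologicalClosure _ (Submodule.subset_span ⟨s, h, rfl⟩)

lemma pg_mem (n : ℕ) (v : List ℕ) (h : v.length ≤ n) : (pv .global v : Amb .global) ∈ Gsp n := by
  induction v with
  | nil => exact cg_mem n [] h
  | cons a v ih =>
    rw [pv, Submodule.coe_add]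
    exact Submodule.add_mem _ (ih (by rw [List.length_cons] at h; omega)) (cg_mem n _ h)

open Classical in
noncomputable def cg (n : ℕ) (s : List ℕ) : Gsp n :=
  if h : s.length ≤ n then ⟨coordVector .global s, cg_mem n s h⟩ else 0

open Classical in
noncomputable def pg (n : ℕ) (s : List ℕ) : Gsp n :=
  if h : s.length ≤ n then ⟨pv .global s, pg_mem n s h⟩ else 0

lemma cg_coe (n : ℕ) (s : List ℕ) (h : s.length ≤ n) :
    (cg n s : Amb .global) = coordVector .global s := by
  unfold cg; rw [dif_pos h]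

lemma pg_coe (n : ℕ) (s : List ℕ) (h : s.length ≤ n) :
    (pg n s : Amb .global) = (pv .global s : Amb .global) := by
  unfold pg; rw [dif_pos h]

lemma cg_l2 (n : ℕ) (v : List ℕ) (hv : v.length < n) (A : Finset ℕ) (a : ℕ → ℝ) :
    ‖∑ k ∈ A, a k • cg n (k :: v)‖ ≤ 1 * Real.sqrt (∑ k ∈ A, a k ^ 2) := by
  refine le_trans (le_of_eq ?_) (child_l2 .global v A a)
  show ‖((∑ k ∈ A, a k • cg n (k :: v) : Gsp n) : Amb .global)‖
    = ‖((∑ k ∈ A, a k • cv .global (k :: v) : modelSpace .global) : Amb .global)‖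
  rw [Submodule.coe_sum, Submodule.coe_sum]
  congr 1
  refine Finset.sum_congr rfl fun k _ => ?_
  rw [Submodule.coe_smul, Submodule.coe_smul, cg_coe n _ (by rw [List.length_cons]; omega)]
  rfl

lemma norm_pg_le (n : ℕ) (v : List ℕ) (h : v.length ≤ n) : ‖pg n v‖ ≤ 1 := by
  show ‖(pg n v : Amb .global)‖ ≤ 1
  rw [pg_coe n v h]
  exact norm_pv_le .global v

lemma one_le_cg (n k : ℕ) (v : List ℕ) (h : v.length < n) : 1 ≤ ‖cg n (k :: v)‖ := by
  show 1 ≤ ‖(cg n (k :: v) : Amb .global)‖
  rw [cg_coe n _ (by rw [List.length_cons]; omega)]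
  exact one_le_norm_cv .global k v

lemma tree_pg (n k : ℕ) : ∀ v : List ℕ, v.length + k ≤ n → Tree 1 1 k (pg n v) := by
  induction k with
  | zero => intro v hv; exact norm_pg_le n v (by omega)
  | succ k ih =>
    intro v hv
    refine ⟨norm_pg_le n v (by omega), fun F hF ε hε => ?_⟩
    obtain ⟨j, y', hy', hlt⟩ := approx_of_weakNull (fun j => cg n (j :: v))
      (weakNull_of_l2 _ 1 (cg_l2 n v (by omega))) F hF ε hε
    refine ⟨cg n (j :: v), ⟨y', hy', hlt⟩, one_le_cg n j v (by omega), ?_⟩
    have h1 : pg n v + cg n (j :: v) = pg n (j :: v) := by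
      apply Subtype.ext
      rw [Submodule.coe_add, pg_coe n v (by omega),
        cg_coe n (j :: v) (by rw [List.length_cons]; omega),
        pg_coe n (j :: v) (by rw [List.length_cons]; omega)]
      rfl
    rw [h1]
    exact ih (j :: v) (by rw [List.length_cons]; omega)

/-- the space -/
noncomputable abbrev Esp := lp (fun n => Gsp n) 2

lemma Esp_inf : ¬ FiniteDimensional ℝ Esp := by
  intro hfd
  have h1 : ¬ FiniteDimensional ℝ (Gsp 1) :=
    not_finiteDimensional_of_weakNull (fun k => cg 1 (k :: []))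
      (weakNull_of_l2 _ 1 (cg_l2 1 [] (by simp))) 1 one_pos fun k => one_le_cg 1 k [] (by simp)
  apply h1
  exact FiniteDimensional.of_injective ((sgl (G := fun n => Gsp n) 1).toLinearMap)
    (sgl (G := fun n => Gsp n) 1).injective

lemma Esp_sep : TopologicalSpace.SeparableSpace Esp :=
  sep_lp fun n => span_separable .global (Un n)

lemma Esp_refl : Refl Esp := refl_lp fun n => refl_Gsp n

lemma Esp_ap : AP Esp := ap_lp fun n => ap_Gsp n

lemma Esp_noAUC (N : Esp → ℝ) (hN : (RB Esp).IsEquivNorm N) : ¬ (RB Esp).IsAUC N := by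
  refine noAUC (X := Esp) 1 1 1 one_pos one_pos one_pos (fun k => ?_) N hN
  refine ⟨sgl (G := fun n => Gsp n) (k + 1) (pg (k + 1) [0]), ?_, ?_⟩
  · rw [LinearIsometry.norm_map]
    show 1 ≤ ‖(pg (k + 1) [0] : Amb .global)‖
    rw [pg_coe _ _ (by simp)]
    exact norm_pv_start .global
  · exact (tree_pg (k + 1) k [0] (by simp; omega)).map _

end Crest.Agent.H4
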