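import Mathlib
import Crest.Prelude.Def_DaugavetL1
import Crest.Agent.H4.Daugavet

/-! Truncation estimates in measure-compact subspaces of `L¹`. -/

set_option autoImplicit false
set_option linter.unusedSectionVars false

namespace Crest.Agent.H4

open Crest.AnalysisR Crest.AnalysisR.L1Subspace MeasureTheory Filter Topology

/-- truncation at height `K` -/
noncomputable def clampK (K r : ℝ) : ℝ := max (-K) (min r K)

lemma clampK_cont (K : ℝ) : Continuous (clampK K) := by
  unfold clampK; fun_prop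

lemma clampK_of_le {K r : ℝ} (h : |r| ≤ K) : clampK K r = r := by
  rw [abs_le] at h
  unfold clampK
  rw [min_eq_left h.2, max_eq_right h.1]

lemma abs_clampK {K : ℝ} (hK : 0 ≤ K) (r : ℝ) : |clampK K r| = min |r| K := by
  rcases le_or_gt |r| K with h | h
  · rw [clampK_of_le h, min_eq_left h]
  · rw [min_eq_right h.le]
    unfold clampK
    rcases le_total 0 r with hr | hr
    · rw [abs_of_nonneg hr] at h
      rw [min_eq_right h.le, max_eq_right (by linarith), abs_of_nonneg hK]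
    · rw [abs_of_nonpos hr] at h
      rw [min_eq_left (by linarith), max_eq_left (by linarith), abs_neg, abs_of_nonneg hK]

lemma abs_sub_clampK {K : ℝ} (hK : 0 ≤ K) (r : ℝ) : |r - clampK K r| = |r| - |clampK K r| := by
  rcases le_or_gt |r| K with h | h
  · rw [clampK_of_le h]; simp
  · rw [abs_clampK hK, min_eq_right h.le]
    unfold clampK
    rcases le_total 0 r with hr | hr
    · rw [abs_of_nonneg hr] at h ⊢
      rw [min_eq_right h.le, max_eq_right (by linarith), abs_of_nonneg (by linarith)]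
    · rw [abs_of_nonpos hr] at h ⊢
      rw [min_eq_left (by linarith), max_eq_left (by linarith), abs_of_nonpos (by linarith)]
      ring

lemma clampK_lip (K a b : ℝ) : |clampK K a - clampK K b| ≤ |a - b| := by
  unfold clampK
  calc |max (-K) (min a K) - max (-K) (min b K)| ≤ |min a K - min b K| := by
        have := abs_max_sub_max_le_max (-K) (min a K) (-K) (min b K)
        simpa using this
    _ ≤ |a - b| := by
        have := abs_min_sub_min_le_max a K b K
        simpa using this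

lemma clampK_bd {K : ℝ} (hK : 0 ≤ K) (a b : ℝ) : |clampK K a - clampK K b| ≤ 2 * K := by
  have h1 : |clampK K a| ≤ K := by rw [abs_clampK hK]; exact min_le_right _ _
  have h2 : |clampK K b| ≤ K := by rw [abs_clampK hK]; exact min_le_right _ _
  have := abs_sub (clampK K a) (clampK K b)
  linarith

/-- pointwise two-sided estimate -/
lemma pt_avg {K t : ℝ} (hK : 0 ≤ K) (ht : 0 < t) (a b : ℝ) :
    2 * |a| + 2 * t * (|b| - |clampK K b|) - 2 * (|a| - |clampK (t * K) a|)
      ≤ |a + t * b| + |a - t * b| := by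
  have hmax1 : 2 * |a| ≤ |a + t * b| + |a - t * b| := by
    have := abs_add_le (a + t * b) (a - t * b)
    have e : (a + t * b) + (a - t * b) = 2 * a := by ring
    rw [e, abs_mul, abs_of_pos (by norm_num : (0:ℝ) < 2)] at this
    exact this
  have hmax2 : 2 * (t * |b|) ≤ |a + t * b| + |a - t * b| := by
    have := abs_sub (a + t * b) (a - t * b)
    have e : (a + t * b) - (a - t * b) = 2 * (t * b) := by ring
    rw [e, abs_mul, abs_mul, abs_of_pos (by norm_num : (0:ℝ) < 2), abs_of_pos ht] at this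
    exact this
  rw [abs_clampK hK, abs_clampK (by positivity)]
  rcases le_or_gt |b| K with h | h
  · rw [min_eq_left h]
    have : 0 ≤ |a| - min |a| (t * K) := sub_nonneg.mpr (min_le_left _ _)
    linarith
  · rw [min_eq_right h.le]
    have : min |a| (t * K) ≤ t * K := min_le_right _ _
    linarith

variable {Ω : Type} [MeasurableSpace Ω] (P : Measure Ω) [IsProbabilityMeasure P]

lemma int_abs (f : Lp ℝ 1 P) : Integrable (fun ω => |f ω|) P := (L1.integrable_coeFn f).abs

lemma norm_eq (f : Lp ℝ 1 P) : ‖f‖ = ∫ ω, |f ω| ∂P := L1.norm_eq_integral_norm f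

lemma aesm_clamp (K : ℝ) (f : Lp ℝ 1 P) : AEStronglyMeasurable (fun ω => clampK K (f ω)) P :=
  (clampK_cont K).comp_aestronglyMeasurable (Lp.aestronglyMeasurable f)

lemma int_clamp {K : ℝ} (hK : 0 ≤ K) (f : Lp ℝ 1 P) :
    Integrable (fun ω => clampK K (f ω)) P := by
  refine Integrable.mono' (int_abs P f) (aesm_clamp P K f) ?_
  refine Filter.Eventually.of_forall fun ω => ?_
  rw [Real.norm_eq_abs, abs_clampK hK]; exact min_le_left _ _

/-- mass of the truncation -/
noncomputable def tn (K : ℝ) (f : Lp ℝ 1 P) : ℝ := ∫ ω, |clampK K (f ω)| ∂P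

/-- distance of truncations -/
noncomputable def td (K : ℝ) (f g : Lp ℝ 1 P) : ℝ := ∫ ω, |clampK K (f ω) - clampK K (g ω)| ∂P

lemma td_comm (K : ℝ) (f g : Lp ℝ 1 P) : td P K f g = td P K g f := by
  unfold td
  congr 1
  funext ω
  exact abs_sub_comm _ _

lemma td_triangle {K : ℝ} (hK : 0 ≤ K) (f g h : Lp ℝ 1 P) :
    td P K f h ≤ td P K f g + td P K g h := by
  unfold td
  have i1 : Integrable (fun ω => |clampK K (f ω) - clampK K (g ω)|) P :=
    ((int_clamp P hK f).sub (int_clamp P hK g)).abs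
  have i2 : Integrable (fun ω => |clampK K (g ω) - clampK K (h ω)|) P :=
    ((int_clamp P hK g).sub (int_clamp P hK h)).abs
  have i3 : Integrable (fun ω => |clampK K (f ω) - clampK K (h ω)|) P :=
    ((int_clamp P hK f).sub (int_clamp P hK h)).abs
  rw [← integral_add i1 i2]
  exact integral_mono i3 (i1.add i2) fun ω => abs_sub_le _ _ _

/-- the distance of two elements is controlled by their truncations and tails -/
lemma norm_sub_le_td {K : ℝ} (hK : 0 ≤ K) (f g : Lp ℝ 1 P) :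
    ‖f - g‖ ≤ td P K f g + (‖f‖ - tn P K f) + (‖g‖ - tn P K g) := by
  have i1 : Integrable (fun ω => |clampK K (f ω) - clampK K (g ω)|) P :=
    ((int_clamp P hK f).sub (int_clamp P hK g)).abs
  have i2 : Integrable (fun ω => |f ω| - |clampK K (f ω)|) P :=
    (int_abs P f).sub (int_clamp P hK f).abs
  have i3 : Integrable (fun ω => |g ω| - |clampK K (g ω)|) P :=
    (int_abs P g).sub (int_clamp P hK g).abs
  have e : td P K f g + (‖f‖ - tn P K f) + (‖g‖ - tn P K g)
      = ∫ ω, (|clampK K (f ω) - clampK K (g ω)| + (|f ω| - |clampK K (f ω)|)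
        + (|g ω| - |clampK K (g ω)|)) ∂P := by
    have i12 : Integrable (fun ω => |clampK K (f ω) - clampK K (g ω)|
      + (|f ω| - |clampK K (f ω)|)) P := i1.add i2
    rw [integral_add i12 i3, integral_add i1 i2,
      integral_sub (int_abs P f) (int_clamp P hK f).abs,
      integral_sub (int_abs P g) (int_clamp P hK g).abs, norm_eq, norm_eq]
    rfl
  rw [e, norm_eq]
  refine integral_mono_ae (int_abs P _) ((i1.add i2).add i3) ?_
  filter_upwards [Lp.coeFn_sub f g] with ω hω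
  rw [hω, Pi.sub_apply, ← abs_sub_clampK hK, ← abs_sub_clampK hK]
  have h1 : f ω - g ω = (clampK K (f ω) - clampK K (g ω)) + (f ω - clampK K (f ω))
    - (g ω - clampK K (g ω)) := by ring
  rw [h1]
  refine (abs_sub _ _).trans ?_
  gcongr
  exact abs_add_le _ _

/-- lower bound for averages -/
lemma avg_lower_L1 {K t : ℝ} (hK : 0 ≤ K) (ht : 0 < t) (x y : Lp ℝ 1 P) :
    2 * ‖x‖ + 2 * t * (‖y‖ - tn P K y) - 2 * (‖x‖ - tn P (t * K) x)
      ≤ ‖x + t • y‖ + ‖x - t • y‖ := by
  have htK : 0 ≤ t * K := by positivity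
  have i1 : Integrable (fun ω => 2 * |x ω|) P := (int_abs P x).const_mul 2
  have i2 : Integrable (fun ω => 2 * t * (|y ω| - |clampK K (y ω)|)) P :=
    ((int_abs P y).sub (int_clamp P hK y).abs).const_mul _
  have i3 : Integrable (fun ω => 2 * (|x ω| - |clampK (t * K) (x ω)|)) P :=
    ((int_abs P x).sub (int_clamp P htK x).abs).const_mul _
  have i12 : Integrable (fun ω => 2 * |x ω| + 2 * t * (|y ω| - |clampK K (y ω)|)) P := i1.add i2
  have e : 2 * ‖x‖ + 2 * t * (‖y‖ - tn P K y) - 2 * (‖x‖ - tn P (t * K) x)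
      = ∫ ω, (2 * |x ω| + 2 * t * (|y ω| - |clampK K (y ω)|)
        - 2 * (|x ω| - |clampK (t * K) (x ω)|)) ∂P := by
    rw [integral_sub i12 i3, integral_add i1 i2, integral_const_mul, integral_const_mul,
      integral_const_mul, integral_sub (int_abs P y) (int_clamp P hK y).abs,
      integral_sub (int_abs P x) (int_clamp P htK x).abs, norm_eq, norm_eq]
    rfl
  rw [e, norm_eq P (x + t • y), norm_eq P (x - t • y), ← integral_add (int_abs P _) (int_abs P _)]
  refine integral_mono_ae (i12.sub i3) ((int_abs P _).add (int_abs P _)) ?_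
  filter_upwards [Lp.coeFn_add x (t • y), Lp.coeFn_sub x (t • y), Lp.coeFn_smul t y]
    with ω h1 h2 h3
  simp only [Pi.add_apply] at h1 ⊢
  rw [h1, h2, Pi.sub_apply, h3, Pi.smul_apply, smul_eq_mul]
  exact pt_avg hK ht _ _

/-- tails of a fixed integrable function vanish -/
lemma tail_tendsto (t : ℝ) (ht : 0 < t) (x : Lp ℝ 1 P) (ε : ℝ) (hε : 0 < ε) :
    ∃ K : ℝ, 0 ≤ K ∧ ‖x‖ - tn P (t * K) x < ε := by
  have h : Tendsto (fun n : ℕ => ∫ ω, |clampK (t * n) (x ω)| ∂P) atTop
      (𝓝 (∫ ω, |x ω| ∂P)) := by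
    refine tendsto_integral_of_dominated_convergence (fun ω => |x ω|) (fun n => ?_)
      (int_abs P x) (fun n => ?_) ?_
    · exact (aesm_clamp P _ x).norm
    · refine Filter.Eventually.of_forall fun ω => ?_
      rw [Real.norm_eq_abs, abs_abs, abs_clampK (by positivity)]
      exact min_le_left _ _
    · refine Filter.Eventually.of_forall fun ω => ?_
      refine tendsto_const_nhds.congr' ?_
      have h1 : Tendsto (fun n : ℕ => t * (n : ℝ)) atTop atTop :=
        tendsto_natCast_atTop_atTop.const_mul_atTop ht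
      filter_upwards [h1.eventually (eventually_ge_atTop |x ω|)] with n hn
      rw [clampK_of_le hn]
  rw [← norm_eq] at h
  obtain ⟨n, hn⟩ := (h.eventually (lt_mem_nhds (show ‖x‖ - ε < ‖x‖ by linarith))).exists
  refine ⟨n, Nat.cast_nonneg n, ?_⟩
  unfold tn
  linarith

/-- closeness in measure gives closeness of truncations -/
lemma td_of_measureDist {K δ : ℝ} (hK : 0 ≤ K) (f g : Lp ℝ 1 P)
    (h : measureDist P f g < δ) : td P K f g ≤ (1 + 2 * K) * δ := by
  unfold measureDist at h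
  have hne : {a : ℝ | 0 < a ∧ P {z | a < |(f : Ω → ℝ) z - (g : Ω → ℝ) z|} < ENNReal.ofReal a}.Nonempty := by
    refine ⟨2, by norm_num, ?_⟩
    refine prob_le_one.trans_lt ?_
    rw [show (1 : ENNReal) = ENNReal.ofReal 1 by simp]
    exact (ENNReal.ofReal_lt_ofReal_iff (by norm_num)).mpr (by norm_num)
  obtain ⟨a, ⟨ha0, ha⟩, haδ⟩ := exists_lt_of_csInf_lt hne h
  set A := {z | a < |(f : Ω → ℝ) z - (g : Ω → ℝ) z|} with hA
  have hAm : MeasurableSet A := by
    have h1 : Measurable (fun z => |(f : Ω → ℝ) z - (g : Ω → ℝ) z|) :=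
      ((Lp.stronglyMeasurable f).measurable.sub (Lp.stronglyMeasurable g).measurable).abs
    exact measurableSet_lt measurable_const h1
  have hreal : P.real A ≤ a := by
    rw [Measure.real]
    exact (ENNReal.toReal_mono ENNReal.ofReal_ne_top ha.le).trans (by
      rw [ENNReal.toReal_ofReal ha0.le])
  have i1 : Integrable (fun ω => a + 2 * K * A.indicator (fun _ => (1:ℝ)) ω) P :=
    (integrable_const _).add (((integrable_const (1:ℝ)).indicator hAm).const_mul _)
  have h2 : td P K f g ≤ ∫ ω, (a + 2 * K * A.indicator (fun _ => (1:ℝ)) ω) ∂P := by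
    refine integral_mono ((int_clamp P hK f).sub (int_clamp P hK g)).abs i1 fun ω => ?_
    show |clampK K (f ω) - clampK K (g ω)| ≤ a + 2 * K * A.indicator (fun _ => (1:ℝ)) ω
    by_cases hω : ω ∈ A
    · rw [Set.indicator_of_mem hω, mul_one]
      exact (clampK_bd hK _ _).trans (by linarith)
    · rw [Set.indicator_of_notMem hω, mul_zero, add_zero]
      have : ¬ (a < |(f : Ω → ℝ) ω - (g : Ω → ℝ) ω|) := hω
      push Not at this
      exact (clampK_lip _ _ _).trans this
  have h3 : ∫ ω, (a + 2 * K * A.indicator (fun _ => (1:ℝ)) ω) ∂P = a + 2 * K * P.real A := by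
    rw [integral_add (integrable_const _) (((integrable_const (1:ℝ)).indicator hAm).const_mul _),
      integral_const_mul, integral_indicator_const _ hAm]
    simp
  rw [h3] at h2
  have h4 : 2 * K * P.real A ≤ 2 * K * a := mul_le_mul_of_nonneg_left hreal (by positivity)
  have h5 : (1 + 2 * K) * a ≤ (1 + 2 * K) * δ := mul_le_mul_of_nonneg_left haδ.le (by positivity)
  linarith

variable (E : Submodule ℝ (Lp ℝ 1 P))

/-- almost half of the mass escapes to infinity in finite codimension -/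
theorem half_escape (htb : UnitBallTotallyBoundedInMeasure P E) {K ε : ℝ} (hK : 0 ≤ K)
    (hε : 0 < ε) : ∃ F : Set E, Cof F ∧ ∀ y ∈ F, ‖y‖ = 1 → tn P K (y : Lp ℝ 1 P) ≤ 1 / 2 + ε := by
  classical
  by_contra hcon
  push Not at hcon
  obtain ⟨s, hs1, hs2⟩ := htb (ε / (2 * (1 + 2 * K))) (by positivity)
  have hnet : ∀ f : E, ‖f‖ ≤ 1 → ∃ g ∈ s, td P K (f : Lp ℝ 1 P) g ≤ ε / 2 := by
    intro f hf
    obtain ⟨g, hg, hd⟩ := hs2 f f.2 hf
    refine ⟨g, hg, (td_of_measureDist P hK _ _ hd).trans (le_of_eq ?_)⟩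
    field_simp
  have hg : ∃ g ∈ s, ∀ F : Set E, Cof F → ∃ y ∈ F, ‖y‖ = 1 ∧ 1 / 2 + ε < tn P K (y : Lp ℝ 1 P) ∧
      td P K (y : Lp ℝ 1 P) g ≤ ε / 2 := by
    by_contra hcon2
    push Not at hcon2
    choose! Fg hFg1 hFg2 using hcon2
    obtain ⟨y, hyF, hy1, hy2⟩ := hcon _ (Cof.forall_mem s Fg hFg1)
    obtain ⟨g, hg, hd⟩ := hnet y hy1.le
    have := hFg2 g hg y (hyF g hg) hy1 hy2
    linarith
  obtain ⟨g, -, hg⟩ := hg
  obtain ⟨y', -, hy'1, hy'2, hy'3⟩ := hg _ Cof.univ
  obtain ⟨ψ, hψ1, hψ2⟩ := exists_dual_vector ℝ y' (by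
    rw [hy'1]; exact one_ne_zero)
  obtain ⟨y, hyF, hy1, hy2, hy3⟩ := hg _ (cof_ker (ψ : E →L[ℝ] ℝ))
  have h1 : 1 ≤ ‖y' - y‖ := by
    have h2 : ψ (y' - y) = 1 := by
      have h3 : ψ y = 0 := hyF
      rw [map_sub, hψ2, h3, hy'1]; simp
    have h3 := ψ.le_opNorm (y' - y)
    rw [h2, hψ1, one_mul, norm_one] at h3
    exact h3
  have h2 : ‖y' - y‖ = ‖(y' : Lp ℝ 1 P) - (y : Lp ℝ 1 P)‖ := rfl
  have h3 := norm_sub_le_td P hK (y' : Lp ℝ 1 P) (y : Lp ℝ 1 P)
  have h4 := td_triangle P hK (y' : Lp ℝ 1 P) g (y : Lp ℝ 1 P)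
  rw [td_comm P K g] at h4
  have h5 : ‖(y' : Lp ℝ 1 P)‖ = 1 := hy'1
  have h6 : ‖(y : Lp ℝ 1 P)‖ = 1 := hy1
  linarith

theorem midpoint_lower (htb : UnitBallTotallyBoundedInMeasure P E) (x : E) (hx : ‖x‖ = 1) (t : ℝ)
    (ht : 0 < t) (η : ℝ) (hη : 0 < η) : ∃ F : Set E, Cof F ∧ ∀ y ∈ F, ‖y‖ = 1 →
      max (t / 2) (t - 1) - η ≤ (‖x + t • y‖ + ‖x - t • y‖) / 2 - 1 := by
  obtain ⟨K, hK, hKx⟩ := tail_tendsto P t ht (x : Lp ℝ 1 P) (η / 2) (by positivity)
  obtain ⟨F, hF, hF'⟩ := half_escape P E htb hK (show 0 < η / (2 * t) by positivity)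
  refine ⟨F, hF, fun y hy hy1 => ?_⟩
  have h1 := avg_lower_L1 P hK ht (x : Lp ℝ 1 P) (y : Lp ℝ 1 P)
  have h2 := hF' y hy hy1
  have h3 : ‖(x : Lp ℝ 1 P)‖ = 1 := hx
  have h4 : ‖(y : Lp ℝ 1 P)‖ = 1 := hy1
  have h5 : ‖x + t • y‖ = ‖(x : Lp ℝ 1 P) + t • (y : Lp ℝ 1 P)‖ := rfl
  have h6 : ‖x - t • y‖ = ‖(x : Lp ℝ 1 P) - t • (y : Lp ℝ 1 P)‖ := rfl
  rw [sub_le_iff_le_add]
  refine max_le ?_ ?_
  · rw [h5, h6]
    rw [h4] at h1
    have h7 : t * tn P K (y : Lp ℝ 1 P) ≤ t * (1 / 2 + η / (2 * t)) :=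
      mul_le_mul_of_nonneg_left h2 ht.le
    have h8 : t * (1 / 2 + η / (2 * t)) = t / 2 + η / 2 := by field_simp
    rw [h3] at h1 hKx
    nlinarith
  · have h7 : 2 * t ≤ ‖x + t • y‖ + ‖x - t • y‖ := by
      have h8 : (2 * t) • y = (x + t • y) - (x - t • y) := by module
      have h9 := norm_sub_le (x + t • y) (x - t • y)
      rw [← h8, norm_smul, hy1, mul_one, Real.norm_of_nonneg (by positivity)] at h9
      exact h9
    linarith

theorem onesided_lower {X : Type} [NormedAddCommGroup X] [NormedSpace ℝ X] (x : X) (hx : ‖x‖ = 1)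
    (t : ℝ) (ht : 0 < t) (η : ℝ) (hη : 0 < η) : ∃ F : Set X, Cof F ∧ ∀ y ∈ F, ‖y‖ = 1 →
      max 0 (t - 2) - η ≤ ‖x + t • y‖ - 1 := by
  obtain ⟨ψ, hψ1, hψ2⟩ := exists_dual_vector ℝ x (by
    rw [hx]; exact one_ne_zero)
  refine ⟨_, cof_ker (ψ : X →L[ℝ] ℝ), fun y hy hy1 => ?_⟩
  replace hy : ψ y = 0 := hy
  rw [sub_le_iff_le_add]
  refine max_le ?_ ?_
  · have h3 := ψ.le_opNorm (x + t • y)
    rw [map_add, map_smul, hy, hψ2, hψ1, hx, one_mul, smul_zero, add_zero] at h3
    simp at h3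
    linarith
  · have h1 : ‖t • y‖ ≤ ‖x + t • y‖ + ‖x‖ := by
      have : t • y = (x + t • y) - x := by abel
      calc ‖t • y‖ = ‖(x + t • y) - x‖ := by rw [← this]
        _ ≤ _ := norm_sub_le _ _
    rw [norm_smul, hy1, mul_one, Real.norm_of_nonneg ht.le, hx] at h1
    linarith

/-- the common almost optimal direction -/
theorem daugavet_upper {X : Type} [NormedAddCommGroup X] [NormedSpace ℝ X]
    (hD : HasDaugavetProperty X) (x : X) (hx : ‖x‖ = 1) (t : ℝ) (ht : 0 < t) (F : Set X)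
    (hF : Cof F) (η : ℝ) (hη : 0 < η) : ∃ y ∈ F, ‖y‖ = 1 ∧ ‖x + t • y‖ ≤ max 1 (t - 1) + η ∧
      ‖x - t • y‖ ≤ 1 + t + η := by
  obtain ⟨u, y, hu, hyF, hy1, hlt⟩ := daugavet_flat hD x hx F hF (η / t) (by positivity)
  have h1 : ‖t • (y + (1/2 : ℝ) • (x + u))‖ ≤ η := by
    rw [norm_smul, Real.norm_of_nonneg ht.le]
    have := mul_le_mul_of_nonneg_left hlt.le ht.le
    rwa [mul_div_cancel₀ _ ht.ne'] at this
  refine ⟨y, hyF, hy1, ?_, ?_⟩
  · have e : x + t • y = ((1 - t / 2) • x - (t / 2) • u) + t • (y + (1/2 : ℝ) • (x + u)) := by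
      module
    rw [e]
    refine (norm_add_le _ _).trans ?_
    have h2 : ‖(1 - t / 2) • x - (t / 2) • u‖ ≤ |1 - t / 2| + t / 2 := by
      refine (norm_sub_le _ _).trans ?_
      rw [norm_smul, norm_smul, hx, mul_one, Real.norm_eq_abs, Real.norm_of_nonneg (by positivity)]
      have : t / 2 * ‖u‖ ≤ t / 2 * 1 := mul_le_mul_of_nonneg_left hu (by positivity)
      linarith
    have h3 : |1 - t / 2| + t / 2 ≤ max 1 (t - 1) := by
      rcases le_total (t / 2) 1 with h | h
      · rw [abs_of_nonneg (by linarith)]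
        exact le_trans (by linarith) (le_max_left _ _)
      · rw [abs_of_nonpos (by linarith)]
        exact le_trans (by linarith) (le_max_right _ _)
    linarith
  · have e : x - t • y = ((1 + t / 2) • x + (t / 2) • u) - t • (y + (1/2 : ℝ) • (x + u)) := by
      module
    rw [e]
    refine (norm_sub_le _ _).trans ?_
    have h2 : ‖(1 + t / 2) • x + (t / 2) • u‖ ≤ 1 + t := by
      refine (norm_add_le _ _).trans ?_
      rw [norm_smul, norm_smul, hx, mul_one, Real.norm_of_nonneg (by positivity),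
        Real.norm_of_nonneg (by positivity)]
      have : t / 2 * ‖u‖ ≤ t / 2 * 1 := mul_le_mul_of_nonneg_left hu (by positivity)
      linarith
    linarith

/-- trees in Daugavet spaces -/
theorem daugavet_tree {X : Type} [NormedAddCommGroup X] [NormedSpace ℝ X]
    (hD : HasDaugavetProperty X) (hne : ∃ z : X, ‖z‖ = 1) (n : ℕ) :
    ∀ x : X, ‖x‖ < 2 → Tree 2 1 n x := by
  obtain ⟨z, hz⟩ := hne
  induction n with
  | zero => intro x hx; exact hx.le
  | succ n ih =>
    intro x hx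
    refine ⟨hx.le, fun F hF ε hε => ?_⟩
    suffices h : ∃ y ∈ F, ‖y‖ = 1 ∧ ‖x + y‖ < 2 by
      obtain ⟨y, hyF, hy1, hlt⟩ := h
      exact ⟨y, ⟨y, hyF, by simpa using hε⟩, hy1.ge, ih _ hlt⟩
    rcases lt_or_ge ‖x‖ (1/2) with h | h
    · obtain ⟨y, hyF, hy1, -, -⟩ := daugavet_upper hD z hz 1 one_pos F hF 1 one_pos
      refine ⟨y, hyF, hy1, ?_⟩
      exact (norm_add_le _ _).trans_lt (by linarith)
    · set r := ‖x‖ with hr
      have hr0 : 0 < r := by linarith
      have hx1 : ‖r⁻¹ • x‖ = 1 := by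
        rw [norm_smul, norm_inv, Real.norm_of_nonneg hr0.le, ← hr, inv_mul_cancel₀ hr0.ne']
      obtain ⟨y, hyF, hy1, h2, -⟩ := daugavet_upper hD (r⁻¹ • x) hx1 r⁻¹ (by positivity) F hF
        ((2 - r) / (2 * r)) (by
          have : 0 < 2 - r := by linarith
          positivity)
      refine ⟨y, hyF, hy1, ?_⟩
      have h3 : r⁻¹ ≤ 2 := by
        rw [inv_le_comm₀ hr0 (by norm_num)]; linarith
      rw [max_eq_left (by linarith), ← smul_add, norm_smul, norm_inv,
        Real.norm_of_nonneg hr0.le] at h2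
      have h4 : ‖x + y‖ ≤ r * (1 + (2 - r) / (2 * r)) := by
        rw [inv_mul_le_iff₀ hr0] at h2
        exact h2
      have h5 : r * (1 + (2 - r) / (2 * r)) = r + (2 - r) / 2 := by field_simp
      linarith

end Crest.Agent.H4
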