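import Mathlib
import Crest.Prelude.Def_TreeProducts
import Crest.Agent.H4.AUC

/-! Path products of independent multipliers: no equivalent AUC norm on their span. -/

set_option autoImplicit false
set_option linter.unusedSectionVars false
set_option linter.unusedSimpArgs false

namespace Crest.Agent.H4

open Crest.AnalysisR Crest.AnalysisR.TreeProduct MeasureTheory ProbabilityTheory Filter Topology

section

variable {Ω : Type} [MeasurableSpace Ω]

/-- path product as a function of finitely many coordinates -/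
noncomputable def blockProd (T : Finset (List ℕ)) : List ℕ → (T → ℝ) → ℝ
  | [], _ => 1
  | a :: v, z => blockProd T v z * (if h : a :: v ∈ T then z ⟨a :: v, h⟩ else 1)

lemma blockProd_meas (T : Finset (List ℕ)) (v : List ℕ) : Measurable (blockProd T v) := by
  induction v with
  | nil => exact measurable_const
  | cons a v ih =>
    have : blockProd T (a :: v) = fun z => blockProd T v z *
      (if h : a :: v ∈ T then z ⟨a :: v, h⟩ else 1) := rfl
    rw [this]
    refine ih.mul ?_
    by_cases h : a :: v ∈ T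
    · simp only [h, dif_pos]
      exact measurable_pi_apply _
    · simp only [h, dif_neg, not_false_eq_true]
      exact measurable_const

lemma blockProd_eq (W : List ℕ → Ω → ℝ) (T : Finset (List ℕ)) (v : List ℕ)
    (hT : ∀ u, u <:+ v → u ≠ [] → u ∈ T) (ω : Ω) :
    blockProd T v (fun i : T => W i ω) = pathProduct W v ω := by
  induction v with
  | nil => rfl
  | cons a v ih =>
    have h : a :: v ∈ T := hT _ (List.suffix_refl _) (by simp)
    rw [blockProd, ih (fun u hu hne => hT u (hu.trans (List.suffix_cons a v)) hne), dif_pos h]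
    rfl

variable (ν : Measure ℝ) [IsProbabilityMeasure ν] (hpos : ν (Set.Ioi 0) = 1)
    (hnc : ∀ c : ℝ, ν ≠ Measure.dirac c) (hmean : ∫ x, x ∂ν = 1)
    (hm2 : Integrable (fun x : ℝ => x ^ 2) ν)
    (μ : Measure Ω) [IsProbabilityMeasure μ]
    (W : List ℕ → Ω → ℝ) (hW : IsRealization ν μ W)

lemma pp_meas (hm : ∀ v, Measurable (W v)) (v : List ℕ) : Measurable (pathProduct W v) := by
  induction v with
  | nil => exact measurable_const
  | cons a v ih => exact ih.mul (hm _)

/-- the path product at `v` is independent of functions of the children of `v` -/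
lemma indep_children (hm : ∀ v, Measurable (W v)) (hi : iIndepFun W μ) (v : List ℕ)
    (A : Finset ℕ) (φ : (Finset.image (fun n => n :: v) A → ℝ) → ℝ) (hφ : Measurable φ) :
    IndepFun (pathProduct W v)
      (fun ω => φ (fun i : Finset.image (fun n => n :: v) A => W i ω)) μ := by
  classical
  have hdis : Disjoint v.tails.toFinset (Finset.image (fun n => n :: v) A) := by
    rw [Finset.disjoint_left]
    intro u hu hu'
    rw [List.mem_toFinset, List.mem_tails] at hu
    rw [Finset.mem_image] at hu'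
    obtain ⟨n, -, rfl⟩ := hu'
    have := hu.length_le
    simp at this
  have h := (hi.indepFun_finset _ _ hdis hm).comp (blockProd_meas v.tails.toFinset v) hφ
  have e : blockProd v.tails.toFinset v ∘ (fun ω (i : v.tails.toFinset) => W i ω)
      = pathProduct W v := by
    funext ω
    exact blockProd_eq W _ v (fun u hu _ => by rw [List.mem_toFinset, List.mem_tails]; exact hu) ω
  rw [e] at h
  exact h

include hW hm2 in
lemma W_int2 (v : List ℕ) (hv : v ≠ []) : Integrable (fun ω => (W v ω) ^ 2) μ := by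
  have h : Measure.map (W v) μ = ν := hW.2.2 v hv
  have hm := hW.1 v
  rw [← h] at hm2
  exact (integrable_map_measure (by fun_prop) hm.aemeasurable).mp hm2

include hW hm2 in
lemma W_memLp2 (v : List ℕ) (hv : v ≠ []) : MemLp (W v) 2 μ := by
  rw [memLp_two_iff_integrable_sq (hW.1 v).aestronglyMeasurable]
  exact W_int2 ν hm2 μ W hW v hv

include hW hm2 in
lemma W_int (v : List ℕ) (hv : v ≠ []) : Integrable (W v) μ :=
  (W_memLp2 ν hm2 μ W hW v hv).integrable (by norm_num)

include hW hmean in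
lemma W_mean (v : List ℕ) (hv : v ≠ []) : ∫ ω, W v ω ∂μ = 1 := by
  have h : Measure.map (W v) μ = ν := hW.2.2 v hv
  rw [← hmean, ← h, integral_map (hW.1 v).aemeasurable (by fun_prop)]

include hW hpos in
lemma W_nonneg (v : List ℕ) (hv : v ≠ []) : ∀ᵐ ω ∂μ, 0 ≤ W v ω := by
  have h : Measure.map (W v) μ = ν := hW.2.2 v hv
  have h1 : ∀ᵐ x ∂ν, 0 < x := by
    have : ν (Set.Ioi 0)ᶜ = 0 := (prob_compl_eq_zero_iff measurableSet_Ioi).mpr hpos
    exact this
  rw [← h] at h1
  have h2 := ae_of_ae_map (hW.1 v).aemeasurable h1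
  exact h2.mono fun ω hω => le_of_lt hω

lemma pp_cons (a : ℕ) (v : List ℕ) :
    pathProduct W (a :: v) = pathProduct W v * W (a :: v) := rfl

include hW in
lemma indep_child (a : ℕ) (v : List ℕ) : IndepFun (pathProduct W v) (W (a :: v)) μ := by
  classical
  have h := indep_children μ W hW.1 hW.2.1 v {a}
    (fun z => z ⟨a :: v, by simp⟩) (measurable_pi_apply _)
  exact h

include hW hm2 in
lemma pp_int (v : List ℕ) : Integrable (pathProduct W v) μ := by
  induction v with
  | nil => exact integrable_const _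
  | cons a v ih =>
    rw [pp_cons]
    exact (indep_child ν μ W hW a v).integrable_mul ih (W_int ν hm2 μ W hW _ (by simp))

include hW hmean in
lemma pp_mean (v : List ℕ) : ∫ ω, pathProduct W v ω ∂μ = 1 := by
  induction v with
  | nil => simp [pathProduct]
  | cons a v ih =>
    rw [pp_cons, (indep_child ν μ W hW a v).integral_mul_eq_mul_integral
      (pp_meas W hW.1 v).aestronglyMeasurable (hW.1 _).aestronglyMeasurable, ih,
      W_mean ν hmean μ W hW _ (by simp), mul_one]

include hW hpos in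
lemma pp_nonneg (v : List ℕ) : ∀ᵐ ω ∂μ, 0 ≤ pathProduct W v ω := by
  induction v with
  | nil => exact Filter.Eventually.of_forall fun ω => zero_le_one
  | cons a v ih =>
    filter_upwards [ih, W_nonneg ν hpos μ W hW (a :: v) (by simp)] with ω h1 h2
    exact mul_nonneg h1 h2

include hW hm2 hmean in
/-- second moment of a centred combination of children -/
lemma lc_sq (v : List ℕ) (A : Finset ℕ) (a : ℕ → ℝ) :
    ∫ ω, (∑ n ∈ A, a n * (W (n :: v) ω - 1)) ^ 2 ∂μ
      = (∫ x, (x - 1) ^ 2 ∂ν) * ∑ n ∈ A, a n ^ 2 := by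
  classical
  have hL2 : ∀ n, MemLp (fun ω => W (n :: v) ω - 1) 2 μ := fun n =>
    (W_memLp2 ν hm2 μ W hW _ (by simp)).sub (memLp_const 1)
  have hint : ∀ n k, Integrable (fun ω => (W (n :: v) ω - 1) * (W (k :: v) ω - 1)) μ := fun n k =>
    (hL2 n).integrable_mul (hL2 k)
  have hsq : ∀ n, ∫ ω, (W (n :: v) ω - 1) * (W (n :: v) ω - 1) ∂μ = ∫ x, (x - 1) ^ 2 ∂ν := by
    intro n
    have h : Measure.map (W (n :: v)) μ = ν := hW.2.2 _ (by simp)
    rw [← h, integral_map (hW.1 _).aemeasurable (by fun_prop)]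
    simp_rw [sq]
  have hcross : ∀ n k, n ≠ k → ∫ ω, (W (n :: v) ω - 1) * (W (k :: v) ω - 1) ∂μ = 0 := by
    intro n k hnk
    have hind : IndepFun (fun ω => W (n :: v) ω - 1) (fun ω => W (k :: v) ω - 1) μ :=
      (hW.2.1.indepFun (show n :: v ≠ k :: v by simpa using hnk)).comp
        (measurable_id.sub_const 1) (measurable_id.sub_const 1)
    rw [hind.integral_fun_mul_eq_mul_integral ((hW.1 _).sub_const 1).aestronglyMeasurable
      ((hW.1 _).sub_const 1).aestronglyMeasurable]
    have : ∫ ω, (W (n :: v) ω - 1) ∂μ = 0 := by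
      rw [integral_sub (W_int ν hm2 μ W hW _ (by simp)) (integrable_const _),
        W_mean ν hmean μ W hW _ (by simp)]
      simp
    rw [this, zero_mul]
  have e1 : ∀ ω, (∑ n ∈ A, a n * (W (n :: v) ω - 1)) ^ 2
      = ∑ n ∈ A, ∑ k ∈ A, a n * a k * ((W (n :: v) ω - 1) * (W (k :: v) ω - 1)) := by
    intro ω
    rw [sq, Finset.sum_mul_sum]
    exact Finset.sum_congr rfl fun n _ => Finset.sum_congr rfl fun k _ => by ring
  simp_rw [e1]
  rw [integral_finsetSum _ fun n _ => integrable_finsetSum _ fun k _ => (hint n k).const_mul _]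
  rw [Finset.mul_sum]
  refine Finset.sum_congr rfl fun n hn => ?_
  rw [integral_finsetSum _ fun k _ => (hint n k).const_mul _]
  simp_rw [integral_const_mul]
  rw [Finset.sum_eq_single_of_mem n hn (fun k _ hk => by rw [hcross n k (Ne.symm hk), mul_zero]),
    hsq n]
  ring

include hW hm2 hmean in
lemma lc_abs (v : List ℕ) (A : Finset ℕ) (a : ℕ → ℝ) :
    ∫ ω, |∑ n ∈ A, a n * (W (n :: v) ω - 1)| ∂μ
      ≤ Real.sqrt (∫ x, (x - 1) ^ 2 ∂ν) * Real.sqrt (∑ n ∈ A, a n ^ 2) := by
  have hL2 : MemLp (fun ω => ∑ n ∈ A, a n * (W (n :: v) ω - 1)) 2 μ := by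
    refine memLp_finsetSum _ fun n _ => ?_
    exact ((W_memLp2 ν hm2 μ W hW _ (by simp)).sub (memLp_const 1)).const_mul (a n)
  have habs : MemLp (fun ω => |∑ n ∈ A, a n * (W (n :: v) ω - 1)|) 2 μ := hL2.abs
  have hi : Integrable (fun ω => |∑ n ∈ A, a n * (W (n :: v) ω - 1)|) μ :=
    habs.integrable (by norm_num)
  have hi2 : Integrable (fun ω => |∑ n ∈ A, a n * (W (n :: v) ω - 1)| ^ 2) μ :=
    habs.integrable_sq
  rw [← Real.sqrt_mul (integral_nonneg fun x => sq_nonneg _),
    ← lc_sq ν hmean hm2 μ W hW v A a]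
  apply Real.le_sqrt_of_sq_le
  set m := ∫ ω, |∑ n ∈ A, a n * (W (n :: v) ω - 1)| ∂μ with hm
  have h1 : 0 ≤ ∫ ω, (|∑ n ∈ A, a n * (W (n :: v) ω - 1)| - m) ^ 2 ∂μ :=
    integral_nonneg fun ω => sq_nonneg _
  have h2 : ∫ ω, (|∑ n ∈ A, a n * (W (n :: v) ω - 1)| - m) ^ 2 ∂μ
      = ∫ ω, (∑ n ∈ A, a n * (W (n :: v) ω - 1)) ^ 2 ∂μ - m ^ 2 := by
    have e : (fun ω => (|∑ n ∈ A, a n * (W (n :: v) ω - 1)| - m) ^ 2)
        = fun ω => (|∑ n ∈ A, a n * (W (n :: v) ω - 1)| ^ 2
          - 2 * m * |∑ n ∈ A, a n * (W (n :: v) ω - 1)|) + m ^ 2 := by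
      funext ω; ring
    have hi3 : Integrable (fun ω => 2 * m * |∑ n ∈ A, a n * (W (n :: v) ω - 1)|) μ :=
      hi.const_mul _
    have hi4 : Integrable (fun ω => |∑ n ∈ A, a n * (W (n :: v) ω - 1)| ^ 2
          - 2 * m * |∑ n ∈ A, a n * (W (n :: v) ω - 1)|) μ := hi2.sub hi3
    rw [e, integral_add hi4 (integrable_const _), integral_sub hi2 hi3, integral_const_mul, ← hm]
    simp only [sq_abs, integral_const, probReal_univ, smul_eq_mul, one_mul]
    ring
  linarith

include hW hm2 in
lemma prodc_int (v : List ℕ) (A : Finset ℕ) (a : ℕ → ℝ) :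
    Integrable (fun ω => pathProduct W v ω * ∑ n ∈ A, a n * (W (n :: v) ω - 1)) μ := by
  have e : (fun ω => pathProduct W v ω * ∑ n ∈ A, a n * (W (n :: v) ω - 1))
      = fun ω => ∑ n ∈ A, a n * (pathProduct W (n :: v) ω - pathProduct W v ω) := by
    funext ω
    rw [Finset.mul_sum]
    refine Finset.sum_congr rfl fun n _ => ?_
    rw [pp_cons]; simp only [Pi.mul_apply]; ring
  rw [e]
  exact integrable_finsetSum _ fun n _ =>
    ((pp_int ν hm2 μ W hW (n :: v)).sub (pp_int ν hm2 μ W hW v)).const_mul _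

include hW hm2 hmean hpos in
lemma prodc_norm (v : List ℕ) (A : Finset ℕ) (a : ℕ → ℝ) :
    ∫ ω, ‖pathProduct W v ω * ∑ n ∈ A, a n * (W (n :: v) ω - 1)‖ ∂μ
      = ∫ ω, |∑ n ∈ A, a n * (W (n :: v) ω - 1)| ∂μ := by
  classical
  simp_rw [norm_mul, Real.norm_eq_abs]
  have hind : IndepFun (fun ω => |pathProduct W v ω|)
      (fun ω => |∑ n ∈ A, a n * (W (n :: v) ω - 1)|) μ := by
    have h := indep_children μ W hW.1 hW.2.1 v A
      (fun z => |∑ n ∈ A, a n * ((if h : n :: v ∈ Finset.image (fun n => n :: v) A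
        then z ⟨n :: v, h⟩ else 1) - 1)|) (by
          refine Measurable.abs (Finset.measurable_sum _ fun n _ => ?_)
          refine Measurable.const_mul (Measurable.sub_const ?_ _) _
          by_cases h : n :: v ∈ Finset.image (fun n => n :: v) A
          · simp only [h, dif_pos]; exact measurable_pi_apply _
          · simp only [h, dif_neg, not_false_eq_true]; exact measurable_const)
    have h2 := h.comp (φ := fun x : ℝ => |x|) (ψ := fun x : ℝ => x) measurable_id.abs measurable_id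
    have e2 : (fun ω => |∑ n ∈ A, a n * (W (n :: v) ω - 1)|)
        = (fun x : ℝ => x) ∘ (fun ω => |∑ n ∈ A, a n *
          ((if h : n :: v ∈ Finset.image (fun n => n :: v) A
            then (fun i : Finset.image (fun n => n :: v) A => W i ω) ⟨n :: v, h⟩ else 1) - 1)|) := by
      funext ω
      show _ = |_|
      have : ∑ n ∈ A, a n * (W (n :: v) ω - 1) = ∑ n ∈ A, a n *
          ((if h : n :: v ∈ Finset.image (fun n => n :: v) A
            then (fun i : Finset.image (fun n => n :: v) A => W i ω) ⟨n :: v, h⟩ else 1) - 1) := by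
        refine Finset.sum_congr rfl fun n hn => ?_
        rw [dif_pos (Finset.mem_image_of_mem _ hn)]
      rw [this]
    rw [e2]
    exact h2
  rw [hind.integral_fun_mul_eq_mul_integral]
  · have h1 : ∫ ω, |pathProduct W v ω| ∂μ = 1 := by
      rw [← pp_mean ν hmean μ W hW v]
      refine integral_congr_ae ?_
      filter_upwards [pp_nonneg ν hpos μ W hW v] with ω hω
      exact abs_of_nonneg hω
    rw [h1, one_mul]
  · exact (pp_meas W hW.1 v).abs.aestronglyMeasurable
  · refine Measurable.aestronglyMeasurable (Measurable.abs (Finset.measurable_sum _ fun n _ => ?_))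
    exact ((hW.1 _).sub_const 1).const_mul _

/-- path products in `L¹` -/
noncomputable def sv (v : List ℕ) : Lp ℝ 1 μ := (pp_int ν hm2 μ W hW v).toL1

lemma sv_mem (v : List ℕ) : sv ν hm2 μ W hW v ∈ productSpan μ W :=
  Submodule.le_topologicalClosure _ (Submodule.subset_span
    ⟨v, Integrable.coeFn_toL1 (pp_int ν hm2 μ W hW v)⟩)

noncomputable def svE (v : List ℕ) : productSpan μ W := ⟨sv ν hm2 μ W hW v, sv_mem ν hm2 μ W hW v⟩

lemma sum_toL1 (v : List ℕ) (A : Finset ℕ) (a : ℕ → ℝ) :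
    ∑ n ∈ A, a n • (sv ν hm2 μ W hW (n :: v) - sv ν hm2 μ W hW v)
      = (prodc_int ν hm2 μ W hW v A a).toL1 := by
  classical
  induction A using Finset.induction_on with
  | empty =>
    simp only [Finset.sum_empty, mul_zero]
    rfl
  | insert k A hk ih =>
    rw [Finset.sum_insert hk, ih]
    unfold sv
    rw [← Integrable.toL1_sub, ← Integrable.toL1_smul, ← Integrable.toL1_add]
    congr 1
    funext ω
    simp only [Pi.add_apply, Pi.smul_apply, Pi.sub_apply, smul_eq_mul, Finset.sum_insert hk]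
    rw [pp_cons]; simp only [Pi.mul_apply]; ring

include hmean hpos in
lemma sv_l2 (v : List ℕ) (A : Finset ℕ) (a : ℕ → ℝ) :
    ‖∑ n ∈ A, a n • (svE ν hm2 μ W hW (n :: v) - svE ν hm2 μ W hW v)‖
      ≤ Real.sqrt (∫ x, (x - 1) ^ 2 ∂ν) * Real.sqrt (∑ n ∈ A, a n ^ 2) := by
  have e : ((∑ n ∈ A, a n • (svE ν hm2 μ W hW (n :: v) - svE ν hm2 μ W hW v) :
      productSpan μ W) : Lp ℝ 1 μ) = (prodc_int ν hm2 μ W hW v A a).toL1 := by
    rw [← sum_toL1 ν hm2 μ W hW v A a, Submodule.coe_sum]; rfl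
  show ‖((∑ n ∈ A, a n • (svE ν hm2 μ W hW (n :: v) - svE ν hm2 μ W hW v) :
      productSpan μ W) : Lp ℝ 1 μ)‖ ≤ _
  rw [e, L1.norm_of_fun_eq_integral_norm, prodc_norm ν hpos hmean hm2 μ W hW v A a]
  exact lc_abs ν hmean hm2 μ W hW v A a

include hnc in
lemma c_pos (hi : Integrable (fun x : ℝ => x) ν) : 0 < ∫ x, |x - 1| ∂ν := by
  have h0 : 0 ≤ ∫ x, |x - 1| ∂ν := integral_nonneg fun x => abs_nonneg _
  rcases h0.eq_or_lt with h | h
  · exfalso
    have hint : Integrable (fun x : ℝ => |x - 1|) ν := (hi.sub (integrable_const 1)).abs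
    rw [eq_comm, integral_eq_zero_iff_of_nonneg (fun x => abs_nonneg _) hint] at h
    have h1 : ∀ᵐ x ∂ν, x = 1 := by
      filter_upwards [h] with x hx
      have : |x - 1| = 0 := hx
      linarith [abs_eq_zero.mp this]
    apply hnc 1
    have h2 : ν ({1}ᶜ) = 0 := h1
    have h3 : ν {1} = 1 := by
      have := prob_compl_eq_zero_iff (μ := ν) (MeasurableSet.singleton (1:ℝ))
      exact this.mp h2
    refine Measure.ext fun s hs => ?_
    rw [Measure.dirac_apply' _ hs]
    by_cases h1s : (1:ℝ) ∈ s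
    · simp only [h1s, Set.indicator_of_mem, Pi.one_apply]
      refine le_antisymm prob_le_one ?_
      rw [← h3]
      exact measure_mono (by simpa using h1s)
    · simp only [h1s, not_false_eq_true, Set.indicator_of_notMem]
      refine measure_mono_null ?_ h2
      intro x hx hx1
      rw [Set.mem_singleton_iff] at hx1
      exact h1s (hx1 ▸ hx)
  · exact h

include hmean hpos in
lemma sv_incr (v : List ℕ) (k : ℕ) :
    ‖svE ν hm2 μ W hW (k :: v) - svE ν hm2 μ W hW v‖ = ∫ x, |x - 1| ∂ν := by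
  have e : ((svE ν hm2 μ W hW (k :: v) - svE ν hm2 μ W hW v : productSpan μ W) : Lp ℝ 1 μ)
      = (prodc_int ν hm2 μ W hW v {k} (fun _ => 1)).toL1 := by
    rw [← sum_toL1 ν hm2 μ W hW v {k} (fun _ => 1)]
    simp only [Finset.sum_singleton, one_smul]
    rfl
  show ‖((svE ν hm2 μ W hW (k :: v) - svE ν hm2 μ W hW v : productSpan μ W) : Lp ℝ 1 μ)‖ = _
  rw [e, L1.norm_of_fun_eq_integral_norm, prodc_norm ν hpos hmean hm2 μ W hW v {k} _]
  simp only [Finset.sum_singleton, one_mul]
  have h : Measure.map (W (k :: v)) μ = ν := hW.2.2 _ (by simp)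
  rw [← h, integral_map (hW.1 _).aemeasurable (by fun_prop)]

include hmean hpos in
lemma sv_norm (v : List ℕ) : ‖svE ν hm2 μ W hW v‖ = 1 := by
  show ‖sv ν hm2 μ W hW v‖ = 1
  unfold sv
  rw [L1.norm_of_fun_eq_integral_norm, ← pp_mean ν hmean μ W hW v]
  refine integral_congr_ae ?_
  filter_upwards [pp_nonneg ν hpos μ W hW v] with ω hω
  rw [Real.norm_eq_abs, abs_of_nonneg hω]

include hmean hpos in
lemma tree_sv (n : ℕ) (v : List ℕ) : Tree 1 (∫ x, |x - 1| ∂ν) n (svE ν hm2 μ W hW v) := by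
  induction n generalizing v with
  | zero => exact (sv_norm ν hpos hmean hm2 μ W hW v).le
  | succ n ih =>
    refine ⟨(sv_norm ν hpos hmean hm2 μ W hW v).le, fun F hF ε hε => ?_⟩
    obtain ⟨k, y', hy', hlt⟩ := approx_of_weakNull
      (fun k => svE ν hm2 μ W hW (k :: v) - svE ν hm2 μ W hW v)
      (weakNull_of_l2 _ _ (sv_l2 ν hpos hmean hm2 μ W hW v)) F hF ε hε
    refine ⟨_, ⟨y', hy', hlt⟩, (sv_incr ν hpos hmean hm2 μ W hW v k).ge, ?_⟩
    rw [add_sub_cancel]
    exact ih (k :: v)

instance (μ : Measure Ω) (W : List ℕ → Ω → ℝ) : CompleteSpace (productSpan μ W) :=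
  (Submodule.isClosed_topologicalClosure _).completeSpace_coe

include hm2 in
lemma nu_int : Integrable (fun x : ℝ => x) ν := by
  have h : MemLp (fun x : ℝ => x) 2 ν := by
    rw [memLp_two_iff_integrable_sq (by fun_prop)]
    exact hm2
  exact h.integrable (by norm_num)

include hnc hmean hpos hm2 hW in
theorem prod_inf : ¬ FiniteDimensional ℝ (productSpan μ W) :=
  not_finiteDimensional_of_weakNull
    (fun k => svE ν hm2 μ W hW (k :: []) - svE ν hm2 μ W hW [])
    (weakNull_of_l2 _ _ (sv_l2 ν hpos hmean hm2 μ W hW []))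
    (∫ x, |x - 1| ∂ν) (c_pos ν hnc (nu_int ν hm2))
    fun k => (sv_incr ν hpos hmean hm2 μ W hW [] k).ge

include hnc hmean hpos hm2 hW in
theorem prod_noAUC (N : productSpan μ W → ℝ) (hN : (spanBanach μ W).IsEquivNorm N) :
    ¬ (spanBanach μ W).IsAUC N :=
  noAUC (X := productSpan μ W) 1 (∫ x, |x - 1| ∂ν) 1 one_pos (c_pos ν hnc (nu_int ν hm2)) one_pos
    (fun n => ⟨svE ν hm2 μ W hW [], (sv_norm ν hpos hmean hm2 μ W hW []).ge,
      tree_sv ν hpos hmean hm2 μ W hW n []⟩) N hN

end

end Crest.Agent.H4
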